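import Mathlib

/-!
Closing up an action with two isomorphic cuts to an action on a finite set.
-/

namespace Vale.Agent.H19

section CloseUp

variable {X T : Type*}

lemma perm_apply_inv (e : Equiv.Perm X) (y : X) : e (e⁻¹ y) = y := e.apply_symm_apply y

variable (a : T → Equiv.Perm X)

/-- The permutation attached to a signed letter. -/
def act (s : T × Bool) : Equiv.Perm X := if s.2 then a s.1 else (a s.1)⁻¹

/-- The opposite letter. -/
def opp (s : T × Bool) : T × Bool := (s.1, !s.2)

lemma act_opp (s : T × Bool) : act a (opp s) = (act a s)⁻¹ := by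
  obtain ⟨t, b⟩ := s
  cases b <;> simp [act, opp]

lemma act_opp_apply (s : T × Bool) (y : X) : act a (opp s) (act a s y) = y := by
  rw [act_opp]
  simp

lemma lift_mk_cons (s : T × Bool) (L : List (T × Bool)) (y : X) :
    FreeGroup.lift a (FreeGroup.mk (s :: L)) y = act a s (FreeGroup.lift a (FreeGroup.mk L) y) := by
  have e : (FreeGroup.mk (s :: L) : FreeGroup T) = FreeGroup.mk [s] * FreeGroup.mk L := by
    rw [FreeGroup.mul_mk]
    rfl
  rw [e, map_mul, Equiv.Perm.mul_apply]
  congr 1
  obtain ⟨t, b⟩ := s
  cases b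
  · have e : (FreeGroup.mk [(t, false)] : FreeGroup T) = (FreeGroup.of t)⁻¹ := by
      rw [FreeGroup.of, FreeGroup.inv_mk]
      rfl
    rw [e, map_inv, FreeGroup.lift_apply_of]
    simp [act]
  · have e : (FreeGroup.mk [(t, true)] : FreeGroup T) = FreeGroup.of t := rfl
    rw [e, FreeGroup.lift_apply_of]
    simp [act]

/-- Data for closing up: a height function, two cuts `c < c'`, and an identification of the
windows of radius `M` around the two cuts. -/
structure CloseData (h : X → ℕ) (M c c' : ℕ) (θ θ' : X → X) : Prop where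
  M_pos : 1 ≤ M
  M_le : M ≤ c
  sep : c + 2 * M ≤ c'
  lip : ∀ t y, h (a t y) ≤ h y + 1 ∧ h y ≤ h (a t y) + 1
  th : ∀ y, c - M ≤ h y → h y < c + M → h (θ y) + c = h y + c' ∧ θ' (θ y) = y
  th' : ∀ y, c' - M ≤ h y → h y < c' + M → h (θ' y) + c' = h y + c ∧ θ (θ' y) = y
  eqv : ∀ t y, c - M ≤ h y → h y < c + M → c - M ≤ h (a t y) → h (a t y) < c + M →
    θ (a t y) = a t (θ y)
  eqv' : ∀ t y, c' - M ≤ h y → h y < c' + M → c' - M ≤ h (a t y) → h (a t y) < c' + M →
    θ' (a t y) = a t (θ' y)

variable {a} {h : X → ℕ} {M c c' : ℕ} {θ θ' : X → X}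

namespace CloseData

variable (D : CloseData a h M c c' θ θ')
include D

lemma lip_act (s : T × Bool) (y : X) : h (act a s y) ≤ h y + 1 ∧ h y ≤ h (act a s y) + 1 := by
  obtain ⟨t, b⟩ := s
  cases b
  · have := D.lip t ((a t)⁻¹ y)
    rw [perm_apply_inv] at this
    simp only [act, Bool.false_eq_true, if_false]
    exact ⟨this.2, this.1⟩
  · have := D.lip t y
    simpa [act] using this

lemma eqv_act (s : T × Bool) (y : X) (h1 : c - M ≤ h y) (h2 : h y < c + M)
    (h3 : c - M ≤ h (act a s y)) (h4 : h (act a s y) < c + M) :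
    θ (act a s y) = act a s (θ y) := by
  obtain ⟨t, b⟩ := s
  cases b
  · simp only [act, Bool.false_eq_true, if_false] at *
    have := D.eqv t ((a t)⁻¹ y) h3 h4 (by simpa using h1) (by simpa using h2)
    rw [perm_apply_inv] at this
    rw [this]
    simp
  · simp only [act, if_true] at *
    exact D.eqv t y h1 h2 h3 h4

lemma eqv_act' (s : T × Bool) (y : X) (h1 : c' - M ≤ h y) (h2 : h y < c' + M)
    (h3 : c' - M ≤ h (act a s y)) (h4 : h (act a s y) < c' + M) :
    θ' (act a s y) = act a s (θ' y) := by
  obtain ⟨t, b⟩ := s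
  cases b
  · simp only [act, Bool.false_eq_true, if_false] at *
    have := D.eqv' t ((a t)⁻¹ y) h3 h4 (by simpa using h1) (by simpa using h2)
    rw [perm_apply_inv] at this
    rw [this]
    simp
  · simp only [act, if_true] at *
    exact D.eqv' t y h1 h2 h3 h4

end CloseData

/-- The folding map. -/
noncomputable def fold (h : X → ℕ) (c c' : ℕ) (θ θ' : X → X) (y : X) : X :=
  if h y < c then θ y else if h y < c' then y else θ' y

namespace CloseData

variable (D : CloseData a h M c c' θ θ')
include D

lemma fold_mem (y : X) (h1 : c - M ≤ h y) (h2 : h y < c' + M) :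
    c ≤ h (fold h c c' θ θ' y) ∧ h (fold h c c' θ θ' y) < c' := by
  have hM := D.M_le
  have hs := D.sep
  unfold fold
  split_ifs with h3 h4
  · have := (D.th y h1 (by omega)).1
    omega
  · omega
  · have := (D.th' y (by omega) h2).1
    omega

omit D in
lemma fold_of_mem (y : X) (h1 : c ≤ h y) (h2 : h y < c') : fold h c c' θ θ' y = y := by
  unfold fold
  rw [if_neg (by omega), if_pos h2]

lemma fold_theta (y : X) (h1 : c - M ≤ h y) (h2 : h y < c + M) :
    fold h c c' θ θ' (θ y) = fold h c c' θ θ' y := by
  have hM := D.M_le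
  have hs := D.sep
  obtain ⟨e1, e2⟩ := D.th y h1 h2
  by_cases h3 : h y < c
  · rw [fold_of_mem (θ y) (by omega) (by omega)]
    unfold fold
    rw [if_pos h3]
  · rw [fold_of_mem y (by omega) (by omega)]
    unfold fold
    rw [if_neg (by omega), if_neg (by omega), e2]

lemma fold_theta' (y : X) (h1 : c' - M ≤ h y) (h2 : h y < c' + M) :
    fold h c c' θ θ' (θ' y) = fold h c c' θ θ' y := by
  have hM := D.M_le
  have hs := D.sep
  obtain ⟨e1, e2⟩ := D.th' y h1 h2
  have := D.fold_theta (θ' y) (by omega) (by omega)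
  rw [e2] at this
  exact this.symm

/-- Equivariance of the folding map. -/
lemma fold_act (s : T × Bool) (y : X) (h1 : c - M ≤ h y) (h2 : h y < c' + M)
    (h3 : c - M ≤ h (act a s y)) (h4 : h (act a s y) < c' + M) :
    fold h c c' θ θ' (act a s (fold h c c' θ θ' y)) = fold h c c' θ θ' (act a s y) := by
  have hM := D.M_le
  have hM1 := D.M_pos
  have hs := D.sep
  have hl := D.lip_act s y
  by_cases h5 : h y < c
  · have e : fold h c c' θ θ' y = θ y := by
      unfold fold
      rw [if_pos h5]
    rw [e, ← D.eqv_act s y h1 (by omega) h3 (by omega), D.fold_theta _ h3 (by omega)]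
  · by_cases h6 : h y < c'
    · rw [fold_of_mem y (by omega) h6]
    · have e : fold h c c' θ θ' y = θ' y := by
        unfold fold
        rw [if_neg h5, if_neg h6]
      rw [e, ← D.eqv_act' s y (by omega) h2 (by omega) h4, D.fold_theta' _ (by omega) h4]

end CloseData

/-- The finite piece. -/
abbrev Piece (h : X → ℕ) (c c' : ℕ) : Type _ := {y : X // c ≤ h y ∧ h y < c'}

/-- The closed-up action of a letter. -/
noncomputable def bfun (D : CloseData a h M c c' θ θ') (s : T × Bool) (y : Piece h c c') :
    Piece h c c' :=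
  ⟨fold h c c' θ θ' (act a s y.1), by
    have hM := D.M_le
    have hM1 := D.M_pos
    have hs := D.sep
    have hl := D.lip_act s y.1
    have := y.2
    exact D.fold_mem _ (by omega) (by omega)⟩

lemma bfun_opp (D : CloseData a h M c c' θ θ') (s : T × Bool) (y : Piece h c c') :
    bfun D (opp s) (bfun D s y) = y := by
  have hM := D.M_le
  have hM1 := D.M_pos
  have hs := D.sep
  have hl := D.lip_act s y.1
  have hy := y.2
  apply Subtype.ext
  change fold h c c' θ θ' (act a (opp s) (fold h c c' θ θ' (act a s y.1))) = y.1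
  rw [D.fold_act (opp s) (act a s y.1) (by omega) (by omega)
    (by rw [act_opp_apply]; omega) (by rw [act_opp_apply]; omega), act_opp_apply,
    CloseData.fold_of_mem _ hy.1 hy.2]

/-- The closed-up permutations. -/
noncomputable def bperm (D : CloseData a h M c c' θ θ') (t : T) : Equiv.Perm (Piece h c c') where
  toFun := bfun D (t, true)
  invFun := bfun D (t, false)
  left_inv y := bfun_opp D (t, true) y
  right_inv y := bfun_opp D (t, false) y

lemma act_bperm (D : CloseData a h M c c' θ θ') (s : T × Bool) (y : Piece h c c') :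
    act (bperm D) s y = bfun D s y := by
  obtain ⟨t, b⟩ := s
  cases b
  · simp only [act, Bool.false_eq_true, if_false]
    rfl
  · simp only [act, if_true]
    rfl

lemma lift_bperm (D : CloseData a h M c c' θ θ') : ∀ (L : List (T × Bool)), L.length ≤ M →
    ∀ y : Piece h c c', c ≤ h (FreeGroup.lift a (FreeGroup.mk L) y.1) + L.length ∧
      h (FreeGroup.lift a (FreeGroup.mk L) y.1) < c' + L.length ∧
      (FreeGroup.lift (bperm D) (FreeGroup.mk L) y).1 =
        fold h c c' θ θ' (FreeGroup.lift a (FreeGroup.mk L) y.1) := by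
  intro L
  induction L with
  | nil =>
    intro _ y
    have e : (FreeGroup.mk ([] : List (T × Bool)) : FreeGroup T) = 1 := rfl
    simp only [e, map_one, Equiv.Perm.one_apply, List.length_nil, add_zero]
    exact ⟨y.2.1, y.2.2, (CloseData.fold_of_mem _ y.2.1 y.2.2).symm⟩
  | cons s L ih =>
    intro hL y
    simp only [List.length_cons] at hL
    obtain ⟨h1, h2, h3⟩ := ih (by omega) y
    have hl := D.lip_act s (FreeGroup.lift a (FreeGroup.mk L) y.1)
    have hM := D.M_le
    rw [lift_mk_cons, lift_mk_cons, act_bperm]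
    refine ⟨by simp only [List.length_cons]; omega, by simp only [List.length_cons]; omega, ?_⟩
    change fold h c c' θ θ' (act a s (FreeGroup.lift (bperm D) (FreeGroup.mk L) y).1) = _
    rw [h3, D.fold_act s _ (by omega) (by omega) (by omega) (by omega)]

/-- A short relation of the original action is a relation of the closed-up action. -/
theorem lift_bperm_rel [DecidableEq T] (D : CloseData a h M c c' θ θ') (r : FreeGroup T)
    (hr : r.toWord.length ≤ M) (hr1 : FreeGroup.lift a r = 1) :
    FreeGroup.lift (bperm D) r = 1 := by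
  classical
  ext y
  obtain ⟨-, -, h3⟩ := lift_bperm D r.toWord hr y
  rw [FreeGroup.mk_toWord, hr1] at h3
  rw [h3]
  exact CloseData.fold_of_mem _ y.2.1 y.2.2

lemma bperm_interior (D : CloseData a h M c c' θ θ') (t : T) (y : Piece h c c')
    (h1 : c ≤ h (a t y.1)) (h2 : h (a t y.1) < c') : (bperm D t y).1 = a t y.1 := by
  change fold h c c' θ θ' (act a (t, true) y.1) = _
  simp only [act, if_true]
  exact CloseData.fold_of_mem _ h1 h2

end CloseUp

end Vale.Agent.H19
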