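import Vale.Agent.H19.Sep

/-!
Fox derivatives and peeling of coefficients in `K[G]` relative to a free normal subgroup.
-/

namespace Vale.Agent.H19

open MonoidAlgebra

section FoxFree

variable {α : Type*} {K : Type*} [CommRing K]

open Classical in
/-- The affine permutation of `K[F]` attached to the generator `y`. -/
noncomputable def aff (x y : α) : Equiv.Perm (MonoidAlgebra K (FreeGroup α)) where
  toFun z := MonoidAlgebra.single (FreeGroup.of y) 1 * z + (if y = x then 1 else 0)
  invFun z := MonoidAlgebra.single (FreeGroup.of y)⁻¹ 1 * (z - (if y = x then 1 else 0))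
  left_inv z := by
    simp only [add_sub_cancel_right]
    rw [← mul_assoc, MonoidAlgebra.single_mul_single]
    simp [← MonoidAlgebra.one_def]
  right_inv z := by
    change MonoidAlgebra.single (FreeGroup.of y) 1 *
      (MonoidAlgebra.single (FreeGroup.of y)⁻¹ 1 * (z - (if y = x then 1 else 0))) +
      (if y = x then 1 else 0) = z
    rw [← mul_assoc, MonoidAlgebra.single_mul_single]
    simp [← MonoidAlgebra.one_def]

variable (K) in
/-- The Fox derivative. -/
noncomputable def fox (x : α) (u : FreeGroup α) : MonoidAlgebra K (FreeGroup α) :=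
  FreeGroup.lift (aff x) u 0

lemma lift_aff (x : α) (u : FreeGroup α) (z : MonoidAlgebra K (FreeGroup α)) :
    FreeGroup.lift (aff x) u z = MonoidAlgebra.single u 1 * z + fox K x u := by
  unfold fox
  induction u using FreeGroup.induction_on generalizing z with
  | C1 => simp [← MonoidAlgebra.one_def]
  | of y =>
    rw [FreeGroup.lift_apply_of]
    simp [aff]
  | inv_of y _ =>
    rw [map_inv, FreeGroup.lift_apply_of]
    change MonoidAlgebra.single (FreeGroup.of y)⁻¹ 1 * (z - _) =
      _ + MonoidAlgebra.single (FreeGroup.of y)⁻¹ 1 * (0 - _)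
    rw [mul_sub, mul_sub]
    simp [sub_eq_add_neg]
  | mul u v hu hv =>
    rw [map_mul, Equiv.Perm.mul_apply, Equiv.Perm.mul_apply, hv z, hu, hu (FreeGroup.lift (aff x) v 0)]
    rw [mul_add, ← mul_assoc, MonoidAlgebra.single_mul_single, one_mul, add_assoc]

lemma fox_mul (x : α) (u v : FreeGroup α) :
    fox K x (u * v) = fox K x u + MonoidAlgebra.single u 1 * fox K x v := by
  have h := lift_aff (K := K) x u (FreeGroup.lift (aff x) v 0)
  have e : fox K x (u * v) = FreeGroup.lift (aff x) u (FreeGroup.lift (aff x) v 0) := by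
    unfold fox
    rw [map_mul, Equiv.Perm.mul_apply]
  rw [e, h, add_comm]
  rfl

@[simp] lemma fox_one (x : α) : fox K x (1 : FreeGroup α) = 0 := by
  simp [fox]

open Classical in
lemma fox_of (x y : α) : fox K x (FreeGroup.of y) = if y = x then 1 else 0 := by
  unfold fox
  rw [FreeGroup.lift_apply_of]
  simp [aff]

lemma fox_inv (x : α) (u : FreeGroup α) :
    fox K x u⁻¹ = - (MonoidAlgebra.single u⁻¹ 1 * fox K x u) := by
  have h := fox_mul (K := K) x u⁻¹ u
  rw [inv_mul_cancel, fox_one] at h
  exact eq_neg_of_add_eq_zero_left h.symm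

/-- Fundamental formula of the Fox calculus. -/
lemma fox_fundamental (u : FreeGroup α) : ∃ S : Finset α, (∀ x, x ∉ S → fox K x u = 0) ∧
    MonoidAlgebra.single u (1 : K) - 1 =
      ∑ x ∈ S, fox K x u * (MonoidAlgebra.single (FreeGroup.of x) 1 - 1) := by
  classical
  induction u using FreeGroup.induction_on with
  | C1 => exact ⟨∅, by simp, by simp [← MonoidAlgebra.one_def]⟩
  | of y =>
    refine ⟨{y}, ?_, ?_⟩
    · intro x hx
      rw [fox_of, if_neg]
      rintro rfl
      simp at hx
    · simp [fox_of]
  | inv_of y _ =>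
    refine ⟨{y}, ?_, ?_⟩
    · intro x hx
      rw [fox_inv, fox_of, if_neg, mul_zero, neg_zero]
      rintro rfl
      simp at hx
    · rw [Finset.sum_singleton, fox_inv, fox_of, if_pos rfl, mul_one, neg_mul, mul_sub, mul_one,
        MonoidAlgebra.single_mul_single]
      simp [← MonoidAlgebra.one_def]
  | mul u v hu hv =>
    obtain ⟨S, hS, hS'⟩ := hu
    obtain ⟨T, hT, hT'⟩ := hv
    refine ⟨S ∪ T, ?_, ?_⟩
    · intro x hx
      rw [Finset.mem_union, not_or] at hx
      rw [fox_mul, hS x hx.1, hT x hx.2, mul_zero, add_zero]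
    · have e1 : ∑ x ∈ S ∪ T, fox K x u * (MonoidAlgebra.single (FreeGroup.of x) 1 - 1) =
          MonoidAlgebra.single u (1 : K) - 1 := by
        rw [hS']
        symm
        apply Finset.sum_subset Finset.subset_union_left
        intro x _ hx
        rw [hS x hx, zero_mul]
      have e2 : ∑ x ∈ S ∪ T, fox K x v * (MonoidAlgebra.single (FreeGroup.of x) 1 - 1) =
          MonoidAlgebra.single v (1 : K) - 1 := by
        rw [hT']
        symm
        apply Finset.sum_subset Finset.subset_union_right
        intro x _ hx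
        rw [hT x hx, zero_mul]
      simp only [fox_mul, add_mul, Finset.sum_add_distrib, mul_assoc, ← Finset.mul_sum]
      rw [e1, e2, mul_sub, MonoidAlgebra.single_mul_single, mul_one, mul_one]
      abel

end FoxFree

section Peel

variable {G : Type*} [Group G] {K : Type*} [CommRing K] {α : Type*}
  (N : Subgroup G) [N.Normal] (e : FreeGroup α ≃* N)

/-- The inclusion `K[F] → K[G]`. -/
noncomputable def iot : MonoidAlgebra K (FreeGroup α) →+* MonoidAlgebra K G :=
  MonoidAlgebra.mapDomainRingHom K (N.subtype.comp e.toMonoidHom)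

@[simp] lemma iot_single (u : FreeGroup α) (c : K) :
    iot N e (MonoidAlgebra.single u c) = MonoidAlgebra.single (e u : G) c := by
  simp [iot]

/-- The `N`-part of `g` with respect to the chosen transversal. -/
noncomputable def npart (g : G) : N :=
  ⟨((g : G ⧸ N).out)⁻¹ * g, QuotientGroup.eq.1 (Quotient.out_eq' (g : G ⧸ N))⟩

lemma npart_mul (g : G) (n : N) : npart N (g * n) = npart N g * n := by
  have h : ((g * n : G) : G ⧸ N) = (g : G ⧸ N) := by
    rw [QuotientGroup.eq]
    simp
  ext
  simp only [npart, Subgroup.coe_mul]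
  rw [h, mul_assoc]

/-- The derivative on group elements. -/
noncomputable def dG (x : α) (g : G) : MonoidAlgebra K G :=
  MonoidAlgebra.single ((g : G ⧸ N).out) 1 * iot N e (fox K x (e.symm (npart N g)))

lemma dG_mul (x : α) (g : G) (u : FreeGroup α) :
    dG (K := K) N e x (g * (e u : G)) =
      dG N e x g + MonoidAlgebra.single g 1 * iot N e (fox K x u) := by
  have h : ((g * (e u : G) : G) : G ⧸ N) = (g : G ⧸ N) := by
    rw [QuotientGroup.eq]
    simp
  unfold dG
  rw [npart_mul, h, map_mul, MulEquiv.symm_apply_apply, fox_mul, map_add, map_mul, mul_add,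
    iot_single, ← mul_assoc, MonoidAlgebra.single_mul_single, MulEquiv.apply_symm_apply]
  congr 3
  · simp only [npart]
    group
  · simp

/-- The derivative on the group algebra. -/
noncomputable def dA (x : α) : MonoidAlgebra K G →+ MonoidAlgebra K G where
  toFun y := y.coeff.sum (fun g c => c • dG N e x g)
  map_zero' := by simp
  map_add' y z := by
    classical
    rw [MonoidAlgebra.coeff_add, Finsupp.sum_add_index']
    · simp
    · intro a b c
      rw [add_smul]

@[simp] lemma dA_single (x : α) (g : G) (c : K) :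
    dA N e x (MonoidAlgebra.single g c) = c • dG N e x g := by
  change (MonoidAlgebra.single g c).coeff.sum (fun g c => c • dG N e x g) = _
  simp

lemma dA_mul_sub_one (x : α) (y : MonoidAlgebra K G) (u : FreeGroup α) :
    dA N e x (y * (MonoidAlgebra.single (e u : G) 1 - 1)) = y * iot N e (fox K x u) := by
  induction y using MonoidAlgebra.induction_linear with
  | zero => simp
  | add y z hy hz => rw [add_mul, map_add, hy, hz, add_mul]
  | single g c =>
    rw [mul_sub, mul_one, MonoidAlgebra.single_mul_single, mul_one, map_sub, dA_single, dA_single,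
      dG_mul, smul_add, add_sub_cancel_left, ← smul_mul_assoc, MonoidAlgebra.smul_single,
      smul_eq_mul, mul_one]

lemma dA_mul (x : α) (a y : MonoidAlgebra K G) (hy : y ∈ W K N 1) :
    dA N e x (a * y) = a * dA N e x y := by
  have hle : W K N 1 ≤ ((dA N e x).comp (AddMonoidHom.mulLeft a) -
      (AddMonoidHom.mulLeft a).comp (dA N e x)).ker := by
    conv_lhs => rw [W]
    rw [AddSubgroup.closure_le]
    rintro z ⟨y, -, n, hn, rfl⟩
    obtain ⟨u, hu⟩ := e.surjective ⟨n, hn⟩
    have hu' : (e u : G) = n := by rw [hu]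
    subst hu'
    rw [SetLike.mem_coe, AddMonoidHom.mem_ker, AddMonoidHom.sub_apply, AddMonoidHom.comp_apply,
      AddMonoidHom.comp_apply, AddMonoidHom.coe_mulLeft, ← mul_assoc, dA_mul_sub_one,
      dA_mul_sub_one, mul_assoc, sub_self]
  have := hle hy
  rw [AddMonoidHom.mem_ker, AddMonoidHom.sub_apply, AddMonoidHom.comp_apply,
      AddMonoidHom.comp_apply, AddMonoidHom.coe_mulLeft, sub_eq_zero] at this
  exact this

lemma expand (y : MonoidAlgebra K G) (hy : y ∈ W K N 1) :
    ∃ S : Finset α, (∀ x, x ∉ S → dA N e x y = 0) ∧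
      y = ∑ x ∈ S, dA N e x y * (MonoidAlgebra.single (e (FreeGroup.of x) : G) 1 - 1) := by
  classical
  have hy' : y ∈ AddSubgroup.closure
      {z | ∃ y ∈ W K N 0, ∃ n ∈ N, z = y * (MonoidAlgebra.single n 1 - 1)} := hy
  clear hy
  induction hy' using AddSubgroup.closure_induction with
  | mem z hz =>
    obtain ⟨y, -, n, hn, rfl⟩ := hz
    obtain ⟨u, hu⟩ := e.surjective ⟨n, hn⟩
    have hu' : (e u : G) = n := by rw [hu]
    subst hu'
    obtain ⟨S, hS, hS'⟩ := fox_fundamental (K := K) u
    refine ⟨S, ?_, ?_⟩
    · intro x hx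
      rw [dA_mul_sub_one, hS x hx, map_zero, mul_zero]
    · simp only [dA_mul_sub_one]
      have h2 := congrArg (iot N e) hS'
      rw [map_sub, iot_single, map_one, map_sum] at h2
      rw [h2, Finset.mul_sum]
      refine Finset.sum_congr rfl (fun x _ => ?_)
      rw [map_mul, map_sub, iot_single, map_one, mul_assoc]
  | zero => exact ⟨∅, by simp, by simp⟩
  | add y z _ _ hy hz =>
    obtain ⟨S, hS, hS'⟩ := hy
    obtain ⟨T, hT, hT'⟩ := hz
    refine ⟨S ∪ T, ?_, ?_⟩
    · intro x hx
      rw [Finset.mem_union, not_or] at hx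
      rw [map_add, hS x hx.1, hT x hx.2, add_zero]
    · simp only [map_add, add_mul, Finset.sum_add_distrib]
      congr 1
      · conv_lhs => rw [hS']
        apply Finset.sum_subset Finset.subset_union_left
        intro x _ hx
        rw [hS x hx, zero_mul]
      · conv_lhs => rw [hT']
        apply Finset.sum_subset Finset.subset_union_right
        intro x _ hx
        rw [hT x hx, zero_mul]
  | neg y _ hy =>
    obtain ⟨S, hS, hS'⟩ := hy
    refine ⟨S, ?_, ?_⟩
    · intro x hx
      rw [map_neg, hS x hx, neg_zero]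
    · simp only [map_neg, neg_mul, Finset.sum_neg_distrib]
      rw [← hS']

/-- Iterated derivatives. -/
noncomputable def dW : List α → MonoidAlgebra K G → MonoidAlgebra K G
  | [], b => b
  | x :: w, b => dW w (dA N e x b)

lemma dW_separate (hs : SepPol K N) (b : MonoidAlgebra K G)
    (hb : ∀ w, proj K N (dW N e w b) = 0) : b = 0 := by
  have key : ∀ (k : ℕ) (φ : G → K), φ ∈ Pol K N k → ∀ b : MonoidAlgebra K G,
      (∀ w, proj K N (dW N e w b) = 0) → pairing φ b = 0 := by
    intro k
    induction k with
    | zero =>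
      intro φ hφ b _
      exact pairing_eq_zero_of_mem N 0 φ b hφ (by simp [W])
    | succ k ih =>
      intro φ hφ b hb
      have h1 : b ∈ W K N 1 := mem_W_one_of_proj_eq_zero N b (hb [])
      obtain ⟨S, -, hS⟩ := expand N e b h1
      rw [hS, map_sum]
      refine Finset.sum_eq_zero (fun x _ => ?_)
      rw [pairing_mul_single_sub_one]
      refine ih _ (mem_Pol_succ.1 hφ _ (e (FreeGroup.of x)).2) _ (fun w => ?_)
      exact hb (x :: w)
  refine hs.eq_zero b (fun f hf => ?_)
  obtain ⟨k, hk⟩ := hf
  exact key k f hk b hb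

lemma peel_aux (a : MonoidAlgebra K G) : ∀ (w : List α) (b : MonoidAlgebra K G),
    proj K N (dW N e w b) ≠ 0 → a * b = 0 → ∃ b', a * b' = 0 ∧ proj K N b' ≠ 0 := by
  intro w
  induction w with
  | nil => intro b hb hab; exact ⟨b, hab, hb⟩
  | cons x w ih =>
    intro b hb hab
    by_cases h : proj K N b = 0
    · refine ih (dA N e x b) hb ?_
      rw [← dA_mul N e x a b (mem_W_one_of_proj_eq_zero N b h), hab, map_zero]
    · exact ⟨b, hab, h⟩

end Peel

/-- Peeling: a right annihilating element can be replaced by one which survives in `K[G/N]`. -/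
theorem peel {G : Type*} [Group G] {K : Type*} [CommRing K] (N : Subgroup G) [N.Normal]
    [IsFreeGroup N] (a b : MonoidAlgebra K G) (hab : a * b = 0) (hb : b ≠ 0) :
    ∃ b', a * b' = 0 ∧ proj K N b' ≠ 0 := by
  have hs : SepPol K N := sepPol_of_isFreeGroup N
  let e : FreeGroup (IsFreeGroup.Generators N) ≃* N := (IsFreeGroup.toFreeGroup N).symm
  have : ∃ w, proj K N (dW N e w b) ≠ 0 := by
    by_contra hcon
    push Not at hcon
    exact hb (dW_separate N e hs b hcon)
  obtain ⟨w, hw⟩ := this
  exact peel_aux N e a w b hw hab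

section Star

variable {G : Type*} [Group G] {K : Type*} [CommRing K]

/-- The standard involution on the group algebra. -/
noncomputable def inv : MonoidAlgebra K G →+ MonoidAlgebra K G where
  toFun x := x.coeff.sum (fun g c => MonoidAlgebra.single g⁻¹ c)
  map_zero' := by simp
  map_add' x y := by
    classical
    rw [MonoidAlgebra.coeff_add, Finsupp.sum_add_index']
    · simp
    · intro a b c
      simp

@[simp] lemma inv_single (g : G) (c : K) :
    inv (MonoidAlgebra.single g c) = MonoidAlgebra.single g⁻¹ c := by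
  change (MonoidAlgebra.single g c).coeff.sum (fun g c => MonoidAlgebra.single g⁻¹ c) = _
  simp

lemma inv_inv' (x : MonoidAlgebra K G) : inv (inv x) = x := by
  induction x using MonoidAlgebra.induction_linear with
  | zero => simp
  | add x y hx hy => rw [map_add, map_add, hx, hy]
  | single g c => simp

lemma inv_mul' (x y : MonoidAlgebra K G) : inv (x * y) = inv y * inv x := by
  induction x using MonoidAlgebra.induction_linear with
  | zero => simp
  | add x z hx hz => rw [add_mul, map_add, hx, hz, map_add, mul_add]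
  | single g c =>
    induction y using MonoidAlgebra.induction_linear with
    | zero => simp
    | add y z hy hz => rw [mul_add, map_add, hy, hz, map_add, add_mul]
    | single h d =>
      rw [MonoidAlgebra.single_mul_single, inv_single, inv_single, inv_single,
        MonoidAlgebra.single_mul_single, mul_inv_rev, mul_comm c d]

lemma inv_proj (N : Subgroup G) [N.Normal] (x : MonoidAlgebra K G) :
    proj K N (inv x) = inv (proj K N x) := by
  induction x using MonoidAlgebra.induction_linear with
  | zero => simp
  | add x y hx hy => rw [map_add, map_add, map_add, map_add, hx, hy]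
  | single g c =>
    rw [inv_single, proj_single, proj_single, inv_single]
    rfl

end Star

/-- Free-by-domain theorem. -/
theorem noZeroDivisors_of_free_normal {G : Type*} [Group G] {K : Type*} [CommRing K]
    (N : Subgroup G) [N.Normal] [IsFreeGroup N]
    (h : ∀ x y : MonoidAlgebra K (G ⧸ N), x * y = 0 → x = 0 ∨ y = 0)
    (x y : MonoidAlgebra K G) (hxy : x * y = 0) : x = 0 ∨ y = 0 := by
  by_contra hcon
  rw [not_or] at hcon
  obtain ⟨hx, hy⟩ := hcon
  obtain ⟨b, hb, hb0⟩ := peel N x y hxy hy
  have h1 : inv b * inv x = 0 := by rw [← inv_mul', hb, map_zero]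
  have hx' : inv x ≠ 0 := by
    intro h0
    apply hx
    rw [← inv_inv' x, h0, map_zero]
  obtain ⟨a, ha, ha0⟩ := peel N (inv b) (inv x) h1 hx'
  have h2 : proj K N (inv b) * proj K N a = 0 := by rw [← map_mul, ha, map_zero]
  rcases h _ _ h2 with h3 | h3
  · rw [inv_proj] at h3
    apply hb0
    rw [← inv_inv' (proj K N b), h3, map_zero]
  · exact ha0 h3

end Vale.Agent.H19
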