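import Vale.Agent.H19.CloseUp

/-!
Pigeonhole: a group with finitely many short relations and no finite quotient cannot have two
isomorphic windows.
-/

namespace Vale.Agent.H19

section Pigeon

variable {X T : Type*} (a : T → Equiv.Perm X) (h : X → ℕ) (M : ℕ)

/-- The `i`-th window. -/
def Win (i : ℕ) : Set X := {y | 2 * M * i ≤ h y ∧ h y < 2 * M * (i + 1)}

/-- Codes of windows. -/
abbrev Code (T : Type*) (M w : ℕ) : Type _ :=
  (Fin (w + 1) → Fin (2 * M) → Prop) × (T → Fin (w + 1) → Fin (w + 1) → Prop)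

variable {w : ℕ}

/-- The code of a window with respect to a labelling. -/
def codeOf (β : X → Fin (w + 1)) (i : ℕ) : Code T M w :=
  (fun k m => ∃ y ∈ Win h M i, β y = k ∧ h y = 2 * M * i + m,
   fun t k l => ∃ y ∈ Win h M i, a t y ∈ Win h M i ∧ β y = k ∧ β (a t y) = l)

open Classical in
/-- Transfer between windows. -/
noncomputable def tr (β β' : X → Fin (w + 1)) (i' : ℕ) (y : X) : X :=
  if hy : ∃ z ∈ Win h M i', β' z = β y then hy.choose else y

variable {a h M}

lemma tr_spec {β β' : X → Fin (w + 1)} {i i' : ℕ} 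
    (hinj' : Set.InjOn β' (Win h M i'))
    (hc : codeOf a h M β i = codeOf a h M β' i') (y : X) (hy : y ∈ Win h M i) :
    tr h M β β' i' y ∈ Win h M i' ∧ β' (tr h M β β' i' y) = β y ∧
      h (tr h M β β' i' y) + 2 * M * i = h y + 2 * M * i' := by
  have hlt : h y - 2 * M * i < 2 * M := by
    have := hy.2
    have h1 := hy.1
    rw [mul_add, mul_one] at this
    omega
  have h1 : (codeOf a h M β i).1 (β y) ⟨h y - 2 * M * i, hlt⟩ :=
    ⟨y, hy, rfl, by have := hy.1; simp; omega⟩
  rw [hc] at h1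
  obtain ⟨z, hz, hz1, hz2⟩ := h1
  have hex : ∃ z ∈ Win h M i', β' z = β y := ⟨z, hz, hz1⟩
  have e : tr h M β β' i' y = hex.choose := by
    unfold tr
    rw [dif_pos hex]
  have hs := hex.choose_spec
  have e2 : hex.choose = z := hinj' hs.1 hz (by rw [hs.2, hz1])
  rw [e, e2]
  refine ⟨hz, hz1, ?_⟩
  rw [hz2]
  have := hy.1
  simp only
  omega

lemma tr_tr {β β' : X → Fin (w + 1)} {i i' : ℕ} (hinj : Set.InjOn β (Win h M i))
    (hinj' : Set.InjOn β' (Win h M i'))
    (hc : codeOf a h M β i = codeOf a h M β' i') (y : X) (hy : y ∈ Win h M i) :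
    tr h M β' β i (tr h M β β' i' y) = y := by
  obtain ⟨h1, h2, h3⟩ := tr_spec hinj' hc y hy
  obtain ⟨h4, h5, h6⟩ := tr_spec hinj hc.symm _ h1
  exact hinj h4 hy (by rw [h5, h2])

lemma tr_act {β β' : X → Fin (w + 1)} {i i' : ℕ} 
    (hinj' : Set.InjOn β' (Win h M i'))
    (hc : codeOf a h M β i = codeOf a h M β' i') (t : T) (y : X) (hy : y ∈ Win h M i)
    (hty : a t y ∈ Win h M i) :
    tr h M β β' i' (a t y) = a t (tr h M β β' i' y) := by
  have h1 : (codeOf a h M β i).2 t (β y) (β (a t y)) := ⟨y, hy, hty, rfl, rfl⟩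
  rw [hc] at h1
  obtain ⟨z, hz, hz1, hz2, hz3⟩ := h1
  obtain ⟨k1, k2, -⟩ := tr_spec hinj' hc y hy
  obtain ⟨l1, l2, -⟩ := tr_spec hinj' hc (a t y) hty
  have e1 : tr h M β β' i' y = z := hinj' k1 hz (by rw [k2, hz2])
  rw [e1]
  exact hinj' l1 hz1 (by rw [l2, hz3])

/-- Two windows with the same code give closing-up data. -/
theorem closeData_of_code {β β' : X → Fin (w + 1)} {i i' : ℕ} (hii : i < i') (hM : 1 ≤ M)
    (hlip : ∀ t y, h (a t y) ≤ h y + 1 ∧ h y ≤ h (a t y) + 1)
    (hinj : Set.InjOn β (Win h M i)) (hinj' : Set.InjOn β' (Win h M i'))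
    (hc : codeOf a h M β i = codeOf a h M β' i') :
    CloseData a h M (2 * M * i + M) (2 * M * i' + M) (tr h M β β' i') (tr h M β' β i) := by
  have hmem : ∀ (j : ℕ) (y : X), 2 * M * j + M - M ≤ h y → h y < 2 * M * j + M + M →
      y ∈ Win h M j := by
    intro j y h1 h2
    refine ⟨by omega, ?_⟩
    rw [mul_add, mul_one]
    omega
  have hsep : 2 * M * i + 2 * M ≤ 2 * M * i' := by
    calc 2 * M * i + 2 * M = 2 * M * (i + 1) := by ring
      _ ≤ 2 * M * i' := Nat.mul_le_mul_left _ hii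
  refine ⟨hM, by omega, by omega, hlip, ?_, ?_, ?_, ?_⟩
  · intro y h1 h2
    have hy := hmem i y h1 h2
    have := (tr_spec hinj' hc y hy).2.2
    exact ⟨by omega, tr_tr hinj hinj' hc y hy⟩
  · intro y h1 h2
    have hy := hmem i' y h1 h2
    have := (tr_spec hinj hc.symm y hy).2.2
    exact ⟨by omega, tr_tr hinj' hinj hc.symm y hy⟩
  · intro t y h1 h2 h3 h4
    exact tr_act hinj' hc t y (hmem i y h1 h2) (hmem i _ h3 h4)
  · intro t y h1 h2 h3 h4
    exact tr_act hinj hc.symm t y (hmem i' y h1 h2) (hmem i' _ h3 h4)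

lemma exists_label (s : Set X) (hs : s.Finite) (hw : s.ncard ≤ w) :
    ∃ β : X → Fin (w + 1), Set.InjOn β s := by
  classical
  have hcard : hs.toFinset.card ≤ w := by
    rwa [← Set.ncard_eq_toFinset_card s hs]
  let e := hs.toFinset.equivFin
  refine ⟨fun y => if hy : y ∈ hs.toFinset then ⟨(e ⟨y, hy⟩).1, by
    have := (e ⟨y, hy⟩).2
    omega⟩ else 0, ?_⟩
  intro y hy z hz hyz
  have hy' : y ∈ hs.toFinset := by simpa using hy
  have hz' : z ∈ hs.toFinset := by simpa using hz
  simp only [hy', hz', dif_pos, Fin.mk.injEq] at hyz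
  have := e.injective (Fin.ext hyz)
  exact congrArg Subtype.val this

end Pigeon

section Core

variable {G : Type*} [Group G]

/-- Closing-up data contradict the absence of finite quotients. -/
theorem no_closeData {T : Type*} (φ : FreeGroup T →* G)
    (hφ : Function.Surjective φ) (s : Set (FreeGroup T)) (hs : Subgroup.normalClosure s = φ.ker)
    (M : ℕ) (hM : 1 ≤ M) [DecidableEq T] (hsM : ∀ r ∈ s, r.toWord.length ≤ M)
    (hG : ∀ N : Subgroup G, N.Normal → N.FiniteIndex → N = ⊤)
    {X : Type*} [MulAction G X] (h : X → ℕ)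
    (hfin : ∀ n, {y | h y ≤ n}.Finite)
    (hlip : ∀ t y, h (φ (FreeGroup.of t) • y) ≤ h y + 1 ∧ h y ≤ h (φ (FreeGroup.of t) • y) + 1)
    (hconn : ∀ j, ∃ y : X, ∃ t : T, (h y = j ∧ h (φ (FreeGroup.of t) • y) = j + 1) ∨
      (h (φ (FreeGroup.of t) • y) = j ∧ h y = j + 1))
    (i i' : ℕ) (hii : i < i') {θ θ' : X → X}
    (D : CloseData (fun t => MulAction.toPerm (φ (FreeGroup.of t)) : T → Equiv.Perm X) h M
      (2 * M * i + M) (2 * M * i' + M) θ θ') : False := by
  classical
  let a : T → Equiv.Perm X := fun t => MulAction.toPerm (φ (FreeGroup.of t))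
  have hliftA : ∀ u : FreeGroup T, FreeGroup.lift a u = MulAction.toPermHom G X (φ u) := by
    intro u
    have : FreeGroup.lift a = (MulAction.toPermHom G X).comp φ := by
      apply FreeGroup.ext_hom
      intro t
      simp [a]
    rw [this]
    rfl
  have hker : φ.ker ≤ (FreeGroup.lift (bperm D)).ker := by
    rw [← hs]
    apply Subgroup.normalClosure_le_normal
    intro r hr
    rw [SetLike.mem_coe, MonoidHom.mem_ker]
    apply lift_bperm_rel D r (hsM r hr)
    have : φ r = 1 := by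
      have : r ∈ φ.ker := by
        rw [← hs]
        exact Subgroup.subset_normalClosure hr
      exact this
    have h2 := hliftA r
    rw [this, map_one] at h2
    exact h2
  have hfinP : Finite (Piece h (2 * M * i + M) (2 * M * i' + M)) := by
    apply Set.Finite.to_subtype
    refine (hfin (2 * M * i' + M)).subset ?_
    intro y hy
    exact hy.2.le
  let ψ : G →* Equiv.Perm (Piece h (2 * M * i + M) (2 * M * i' + M)) :=
    φ.liftOfSurjective hφ ⟨FreeGroup.lift (bperm D), hker⟩
  have hψ : ∀ u, ψ (φ u) = FreeGroup.lift (bperm D) u := by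
    intro u
    exact MonoidHom.liftOfRightInverse_comp_apply _ _ _ ⟨FreeGroup.lift (bperm D), hker⟩ u
  have htop : ψ.ker = ⊤ := by
    apply hG _ inferInstance
    exact Subgroup.finiteIndex_ker ψ
  have htriv : ∀ t, bperm D t = 1 := by
    intro t
    have h1 : φ (FreeGroup.of t) ∈ ψ.ker := by
      rw [htop]
      exact Subgroup.mem_top _
    rw [MonoidHom.mem_ker, hψ, FreeGroup.lift_apply_of] at h1
    exact h1
  have hsep : 2 * M * i + 2 * M ≤ 2 * M * i' := by
    calc 2 * M * i + 2 * M = 2 * M * (i + 1) := by ring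
      _ ≤ 2 * M * i' := Nat.mul_le_mul_left _ hii
  obtain ⟨y, t, hyt | hyt⟩ := hconn (2 * M * i + M)
  · obtain ⟨h1, h2⟩ := hyt
    have e := bperm_interior D t ⟨y, by omega, by omega⟩
      (by change _ ≤ h (φ (FreeGroup.of t) • y); omega)
      (by change h (φ (FreeGroup.of t) • y) < _; omega)
    rw [htriv t] at e
    have e2 : y = φ (FreeGroup.of t) • y := e
    rw [← e2] at h2
    omega
  · obtain ⟨h1, h2⟩ := hyt
    have e := bperm_interior D t ⟨y, by omega, by omega⟩
      (by change _ ≤ h (φ (FreeGroup.of t) • y); omega)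
      (by change h (φ (FreeGroup.of t) • y) < _; omega)
    rw [htriv t] at e
    have e2 : y = φ (FreeGroup.of t) • y := e
    rw [← e2] at h1
    omega

end Core

end Vale.Agent.H19
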