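import Vale.Agent.H19.Gap

/-!
Sharper count of windows, and the lower bound on the number of points of small height.
-/

namespace Vale.Agent.H19

section FCode

/-- Functional codes of windows. -/
abbrev FCode (T : Type*) (M w : ℕ) : Type _ :=
  (Fin (w + 1) → Option (Fin (2 * M))) × (T → Fin (w + 1) → Option (Fin (w + 1)))

lemma card_FCode (T : Type*) [Fintype T] (M w : ℕ) :
    Nat.card (FCode T M w) = (2 * M + 1) ^ (w + 1) * ((w + 2) ^ (w + 1)) ^ (Fintype.card T) := by
  classical
  rw [Nat.card_eq_fintype_card]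
  simp [Fintype.card_prod, Fintype.card_option]

lemma exists_option_of_functional {A B : Type*} (R : A → B → Prop)
    (hR : ∀ k l l', R k l → R k l' → l = l') : ∃ f : A → Option B, ∀ k l, R k l ↔ f k = some l := by
  classical
  refine ⟨fun k => if hk : ∃ l, R k l then some hk.choose else none, ?_⟩
  intro k l
  by_cases hk : ∃ l, R k l
  · simp only [hk, dif_pos, Option.some.injEq]
    constructor
    · intro h
      exact hR k _ _ hk.choose_spec h
    · rintro rfl
      exact hk.choose_spec
  · simp only [hk, dif_neg, not_false_eq_true]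
    constructor
    · intro h
      exact absurd ⟨l, h⟩ hk
    · intro h
      simp at h

variable {X T : Type*} (a : T → Equiv.Perm X) (h : X → ℕ) (M : ℕ) {w : ℕ}

lemma exists_fcode (β : X → Fin (w + 1)) (i : ℕ) (hinj : Set.InjOn β (Win h M i)) :
    ∃ f : FCode T M w, (∀ k m, (codeOf a h M β i).1 k m ↔ f.1 k = some m) ∧
      ∀ t k l, (codeOf a h M β i).2 t k l ↔ f.2 t k = some l := by
  obtain ⟨f1, hf1⟩ := exists_option_of_functional (codeOf a h M β i).1 (by
    rintro k l l' ⟨y, hy, hy1, hy2⟩ ⟨z, hz, hz1, hz2⟩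
    have : y = z := hinj hy hz (by rw [hy1, hz1])
    subst this
    apply Fin.ext
    omega)
  have : ∀ t, ∃ f2 : Fin (w + 1) → Option (Fin (w + 1)),
      ∀ k l, (codeOf a h M β i).2 t k l ↔ f2 k = some l := by
    intro t
    apply exists_option_of_functional
    rintro k l l' ⟨y, hy, _, hy1, hy2⟩ ⟨z, hz, _, hz1, hz2⟩
    have : y = z := hinj hy hz (by rw [hy1, hz1])
    subst this
    rw [← hy2, ← hz2]
  choose f2 hf2 using this
  exact ⟨(f1, f2), hf1, hf2⟩

end FCode

section Core

variable {G : Type*} [Group G]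

/-- There are few small windows (sharper count). -/
theorem few_small_windows' {T : Type*} [Fintype T] (φ : FreeGroup T →* G)
    (hφ : Function.Surjective φ) (s : Set (FreeGroup T)) (hs : Subgroup.normalClosure s = φ.ker)
    (M : ℕ) (hM : 1 ≤ M) [DecidableEq T] (hsM : ∀ r ∈ s, r.toWord.length ≤ M)
    (hG : ∀ N : Subgroup G, N.Normal → N.FiniteIndex → N = ⊤)
    {X : Type*} [MulAction G X] (h : X → ℕ)
    (hfin : ∀ n, {y | h y ≤ n}.Finite)
    (hlip : ∀ t y, h (φ (FreeGroup.of t) • y) ≤ h y + 1 ∧ h y ≤ h (φ (FreeGroup.of t) • y) + 1)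
    (hconn : ∀ j, ∃ y : X, ∃ t : T, (h y = j ∧ h (φ (FreeGroup.of t) • y) = j + 1) ∨
      (h (φ (FreeGroup.of t) • y) = j ∧ h y = j + 1))
    (w : ℕ) (I : Finset ℕ) (hI : ∀ i ∈ I, (Win h M i).ncard ≤ w) :
    I.card ≤ Nat.card (FCode T M w) := by
  classical
  by_contra hcon
  push Not at hcon
  let a : T → Equiv.Perm X := fun t => MulAction.toPerm (φ (FreeGroup.of t))
  have hwin : ∀ i, (Win h M i).Finite := by
    intro i
    refine (hfin (2 * M * (i + 1))).subset ?_
    intro y hy
    exact hy.2.le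
  have hβ : ∀ i, ∃ β : X → Fin (w + 1), ∃ f : FCode T M w, i ∈ I → Set.InjOn β (Win h M i) ∧
      (∀ k m, (codeOf a h M β i).1 k m ↔ f.1 k = some m) ∧
      ∀ t k l, (codeOf a h M β i).2 t k l ↔ f.2 t k = some l := by
    intro i
    by_cases hi : i ∈ I
    · obtain ⟨β, hβ⟩ := exists_label (w := w) _ (hwin i) (hI i hi)
      obtain ⟨f, hf⟩ := exists_fcode a h M β i hβ
      exact ⟨β, f, fun _ => ⟨hβ, hf⟩⟩
    · exact ⟨fun _ => 0, (fun _ => none, fun _ _ => none), fun h => absurd h hi⟩
  choose β f hβ using hβ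
  rw [Nat.card_eq_fintype_card] at hcon
  obtain ⟨i, hi, i', hi', hne, heq⟩ := Finset.exists_ne_map_eq_of_card_lt_of_maps_to
    (s := I) (t := (Finset.univ : Finset (FCode T M w))) (by simpa using hcon)
    (f := f) (fun _ _ => Finset.mem_univ _)
  have hcode : codeOf a h M (β i) i = codeOf a h M (β i') i' := by
    obtain ⟨-, h1, h2⟩ := hβ i hi
    obtain ⟨-, h1', h2'⟩ := hβ i' hi'
    apply Prod.ext
    · funext k m
      exact propext ((h1 k m).trans (by rw [heq]; exact (h1' k m).symm))
    · funext t k l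
      exact propext ((h2 t k l).trans (by rw [heq]; exact (h2' t k l).symm))
  have hb := fun i hi => (hβ i hi).1
  clear hβ heq
  wlog hii : i < i' generalizing i i'
  · exact this i' hi' i hi hne.symm hcode.symm (lt_of_le_of_ne (not_lt.1 hii) hne.symm)
  have D := closeData_of_code (a := a) hii hM hlip (hb i hi) (hb i' hi') hcode
  exact no_closeData φ hφ s hs M hM hsM hG h hfin hlip hconn i i' hii D

end Core

end Vale.Agent.H19
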