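import Vale.Agent.H19.GapCount

/-!
Growth of Schreier graphs of finitely presented groups without finite quotients.
-/

namespace Vale.Agent.H19

open Filter

section Ball

variable {G X : Type*} [Group G] [MulAction G X]

/-- Ball of radius `n` around `x` in the Schreier graph. -/
def ball (S : Set G) (x : X) (n : ℕ) : Set X :=
  {y | ∃ l : List G, l.length ≤ n ∧ (∀ g ∈ l, g ∈ S ∨ g⁻¹ ∈ S) ∧ l.prod • x = y}

variable {S : Set G} {x : X}

lemma ball_mono {m n : ℕ} (hmn : m ≤ n) : ball S x m ⊆ ball S x n := by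
  rintro y ⟨l, h1, h2, h3⟩
  exact ⟨l, h1.trans hmn, h2, h3⟩

lemma mem_ball_zero : x ∈ ball S x 0 := ⟨[], by simp, by simp, by simp⟩

lemma list_smul_mem_ball {n : ℕ} {y : X} (hy : y ∈ ball S x n) (l : List G)
    (hl : ∀ g ∈ l, g ∈ S ∨ g⁻¹ ∈ S) : l.prod • y ∈ ball S x (n + l.length) := by
  obtain ⟨l', h1, h2, rfl⟩ := hy
  refine ⟨l ++ l', by simp; omega, ?_, by rw [List.prod_append, mul_smul]⟩
  intro g hg
  rcases List.mem_append.1 hg with h | h
  · exact hl g h
  · exact h2 g h

lemma ball_succ_subset (n : ℕ) : ball S x (n + 1) ⊆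
    ball S x n ∪ ⋃ g ∈ (S ∪ S⁻¹ : Set G), (fun y => g • y) '' ball S x n := by
  rintro y ⟨l, h1, h2, h3⟩
  rcases l with _ | ⟨g, l⟩
  · left
    exact ⟨[], by simp, by simp, h3⟩
  · right
    simp only [List.length_cons] at h1
    refine Set.mem_iUnion₂.2 ⟨g, ?_, l.prod • x, ⟨l, by omega, ?_, rfl⟩, ?_⟩
    · rcases h2 g (by simp) with h | h
      · exact Or.inl h
      · exact Or.inr h
    · intro g' hg'
      exact h2 g' (by simp [hg'])
    · rw [← h3, List.prod_cons, mul_smul]

lemma ball_finite (hS : S.Finite) (n : ℕ) : (ball S x n).Finite := by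
  induction n with
  | zero =>
    refine (Set.finite_singleton x).subset ?_
    rintro y ⟨l, h1, -, h3⟩
    have : l = [] := by
      apply List.eq_nil_of_length_eq_zero
      omega
    subst this
    simpa using h3.symm
  | succ n ih =>
    refine Set.Finite.subset ?_ (ball_succ_subset n)
    refine ih.union ?_
    refine Set.Finite.biUnion (hS.union hS.inv) ?_
    intro g _
    exact ih.image _

lemma exists_list (hS : Subgroup.closure S = ⊤) (g : G) :
    ∃ l : List G, (∀ g ∈ l, g ∈ S ∨ g⁻¹ ∈ S) ∧ l.prod = g := by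
  have hg : g ∈ Subgroup.closure S := by
    rw [hS]
    exact Subgroup.mem_top _
  rw [← Subgroup.mem_toSubmonoid, Subgroup.closure_toSubmonoid] at hg
  obtain ⟨l, h1, h2⟩ := Submonoid.exists_list_of_mem_closure hg
  refine ⟨l, ?_, h2⟩
  intro g hg
  rcases h1 g hg with h | h
  · exact Or.inl h
  · exact Or.inr h

/-- Distance from `x`. -/
noncomputable def dist' (S : Set G) (x y : X) : ℕ := sInf {n | y ∈ ball S x n}

lemma dist'_le {n : ℕ} {y : X} (hy : y ∈ ball S x n) : dist' S x y ≤ n := Nat.sInf_le hy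

lemma mem_ball_dist' (hS : Subgroup.closure S = ⊤) {y : X} (hy : y ∈ MulAction.orbit G x) :
    y ∈ ball S x (dist' S x y) := by
  obtain ⟨g, rfl⟩ := hy
  obtain ⟨l, h1, h2⟩ := exists_list hS g
  have hne : {n | g • x ∈ ball S x n}.Nonempty := ⟨l.length, l, le_rfl, h1, by rw [h2]⟩
  exact Nat.sInf_mem hne

lemma dist'_smul_le (hS : Subgroup.closure S = ⊤) {y : X} (hy : y ∈ MulAction.orbit G x)
    (l : List G) (hl : ∀ g ∈ l, g ∈ S ∨ g⁻¹ ∈ S) :
    dist' S x (l.prod • y) ≤ dist' S x y + l.length :=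
  dist'_le (list_smul_mem_ball (mem_ball_dist' hS hy) l hl)

end Ball

section Main

variable {G : Type*} [Group G]

/-- The combinatorial lower bound. -/
theorem ball_lower_bound [hfp : Group.IsFinitelyPresented G]
    (hG : ∀ N : Subgroup G, N.Normal → N.FiniteIndex → N = ⊤)
    (S : Set G) (hSf : S.Finite) (hS : Subgroup.closure S = ⊤) :
    ∃ M c₀ τ : ℕ, 1 ≤ M ∧ 1 ≤ c₀ ∧ ∀ (X : Type*) [MulAction G X] (x : X),
      (∃ g : G, g • x ≠ x) → ∀ w J n : ℕ, 2 * M * J * c₀ ≤ n + 1 →
      (w + 1) * (J - (2 * M + 1) ^ (w + 1) * ((w + 2) ^ (w + 1)) ^ τ) ≤ (ball S x n).ncard := by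
  classical
  obtain ⟨k, φ, hφ, s, hsf, hs⟩ := hfp.out
  -- bounds
  obtain ⟨M, hM1, hM⟩ : ∃ M, 1 ≤ M ∧ ∀ r ∈ s, r.toWord.length ≤ M := by
    refine ⟨∑ r ∈ hsf.toFinset, r.toWord.length + 1, by omega, ?_⟩
    intro r hr
    have := Finset.single_le_sum (f := fun r : FreeGroup (Fin k) => r.toWord.length)
      (fun _ _ => Nat.zero_le _) (hsf.mem_toFinset.2 hr)
    omega
  have hex : ∀ t : Fin k, ∃ l : List G, (∀ g ∈ l, g ∈ S ∨ g⁻¹ ∈ S) ∧
      l.prod = φ (FreeGroup.of t) := fun t => exists_list hS _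
  choose L hL1 hL2 using hex
  obtain ⟨c₀, hc1, hc⟩ : ∃ c₀, 1 ≤ c₀ ∧ ∀ t, (L t).length ≤ c₀ := by
    refine ⟨∑ t, (L t).length + 1, by omega, ?_⟩
    intro t
    have := Finset.single_le_sum (f := fun t : Fin k => (L t).length)
      (fun _ _ => Nat.zero_le _) (Finset.mem_univ t)
    omega
  refine ⟨M, c₀, k, hM1, hc1, ?_⟩
  intro X _ x hx w J n hn
  -- the orbit
  let O := MulAction.orbit G x
  have hinf : Infinite O := by
    by_contra hfin
    rw [not_infinite_iff_finite] at hfin
    have htop : (MulAction.toPermHom G O).ker = ⊤ := by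
      apply hG _ inferInstance
      exact Subgroup.finiteIndex_ker _
    obtain ⟨g, hg⟩ := hx
    apply hg
    have h1 : g ∈ (MulAction.toPermHom G O).ker := by
      rw [htop]
      exact Subgroup.mem_top _
    rw [MonoidHom.mem_ker] at h1
    exact congrArg (fun e : Equiv.Perm O => (e ⟨x, MulAction.mem_orbit_self x⟩ : X)) h1
  let h : O → ℕ := fun y => dist' S x y.1 / c₀
  have hd : ∀ (l : List G), (∀ g ∈ l, g ∈ S ∨ g⁻¹ ∈ S) → l.length ≤ c₀ → ∀ y : O,
      h (l.prod • y) ≤ h y + 1 := by
    intro l hl hlc y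
    have h1 := dist'_smul_le hS y.2 l hl
    have h2 : dist' S x (l.prod • y.1) ≤ dist' S x y.1 + c₀ := by omega
    have h3 : (dist' S x y.1 + c₀) / c₀ = dist' S x y.1 / c₀ + 1 := Nat.add_div_right _ hc1
    calc h (l.prod • y) = dist' S x (l.prod • y.1) / c₀ := rfl
      _ ≤ (dist' S x y.1 + c₀) / c₀ := Nat.div_le_div_right h2
      _ = h y + 1 := h3
  have hlip : ∀ t (y : O), h (φ (FreeGroup.of t) • y) ≤ h y + 1 ∧
      h y ≤ h (φ (FreeGroup.of t) • y) + 1 := by
    intro t y
    constructor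
    · rw [← hL2 t]
      exact hd (L t) (hL1 t) (hc t) y
    · have h1 := hd ((L t).map (·⁻¹)).reverse ?_ ?_ (φ (FreeGroup.of t) • y)
      · rw [List.prod_reverse_noncomm] at h1
        simp only [List.map_map] at h1
        have e : (List.map ((fun x => x⁻¹) ∘ fun x => x⁻¹) (L t)) = L t := by
          conv_rhs => rw [← List.map_id (L t)]
          congr 1
          funext z
          simp
        rw [e, hL2 t, inv_smul_smul] at h1
        exact h1
      · intro g hg
        rw [List.mem_reverse, List.mem_map] at hg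
        obtain ⟨g', hg', rfl⟩ := hg
        rcases hL1 t g' hg' with h | h
        · right; simpa using h
        · left; exact h
      · simpa using hc t
  have hfin : ∀ m, {y : O | h y ≤ m}.Finite := by
    intro m
    have h1 : (ball S x ((m + 1) * c₀)).Finite := ball_finite hSf _
    refine (h1.preimage (f := fun y : O => y.1) (fun a _ b _ hab => Subtype.ext hab)).subset ?_
    intro y hy
    have h2 : dist' S x y.1 < (m + 1) * c₀ := by
      have : dist' S x y.1 / c₀ < m + 1 := Nat.lt_succ_of_le hy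
      exact (Nat.div_lt_iff_lt_mul (by omega)).1 this
    exact ball_mono h2.le (mem_ball_dist' hS y.2)
  have hconn : ∀ j, ∃ y : O, ∃ t, (h y = j ∧ h (φ (FreeGroup.of t) • y) = j + 1) ∨
      (h (φ (FreeGroup.of t) • y) = j ∧ h y = j + 1) := by
    intro j
    by_contra hcon
    push Not at hcon
    have hstep : ∀ u : FreeGroup (Fin k), ∀ y : O, h y ≤ j → h (φ u • y) ≤ j := by
      intro u
      induction u using FreeGroup.induction_on with
      | C1 => intro y hy; simpa using hy
      | of t =>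
        intro y hy
        by_contra hlt
        push Not at hlt
        have h1 := hlip t y
        have h2 := (hcon y t).1 (by omega)
        omega
      | inv_of t _ =>
        intro y hy
        by_contra hlt
        push Not at hlt
        rw [map_inv] at hlt
        have h1 := hlip t ((φ (FreeGroup.of t))⁻¹ • y)
        have h2 := (hcon ((φ (FreeGroup.of t))⁻¹ • y) t).2
        rw [smul_inv_smul] at h1 h2
        have h3 := h2 (by omega)
        omega
      | mul u v hu hv =>
        intro y hy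
        rw [map_mul, mul_smul]
        exact hu _ (hv _ hy)
    have hall : ∀ y : O, h y ≤ j := by
      intro y
      obtain ⟨g, hg⟩ := y.2
      obtain ⟨u, rfl⟩ := hφ g
      have hx0 : h ⟨x, MulAction.mem_orbit_self x⟩ ≤ j := by
        have : dist' S x x ≤ 0 := dist'_le mem_ball_zero
        change dist' S x x / c₀ ≤ j
        have e : dist' S x x = 0 := by omega
        rw [e]
        simp
      have := hstep u ⟨x, MulAction.mem_orbit_self x⟩ hx0
      have e : φ u • (⟨x, MulAction.mem_orbit_self x⟩ : O) = y := Subtype.ext hg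
      rwa [e] at this
    have : (Set.univ : Set O).Finite := (hfin j).subset (fun y _ => hall y)
    exact (Set.infinite_univ (α := O)) this
  -- counting
  have hfew := few_small_windows' φ hφ s hs M hM1 hM hG h hfin hlip hconn w
    ((Finset.range J).filter (fun i => (Win h M i).ncard ≤ w)) (by
      intro i hi
      exact (Finset.mem_filter.1 hi).2)
  rw [card_FCode, Fintype.card_fin] at hfew
  have hwin : ∀ i, (Win h M i).Finite := by
    intro i
    refine (hfin (2 * M * (i + 1))).subset ?_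
    intro y hy
    exact hy.2.le
  have hdisj : ∀ i j, i < j → Disjoint (Win h M i) (Win h M j) := by
    intro i j hij
    rw [Set.disjoint_left]
    intro y hy hy'
    have h1 := hy.2
    have h2 := hy'.1
    have : 2 * M * (i + 1) ≤ 2 * M * j := Nat.mul_le_mul_left _ hij
    omega
  have hsum : ∀ J, ∑ i ∈ Finset.range J, (Win h M i).ncard = {y : O | h y < 2 * M * J}.ncard := by
    intro J
    induction J with
    | zero => simp
    | succ J ih =>
      have hd1 : Disjoint {y : O | h y < 2 * M * J} (Win h M J) := by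
        rw [Set.disjoint_left]
        intro y hy hy'
        have h1 := hy'.1
        have hy2 : h y < 2 * M * J := hy
        omega
      rw [Finset.sum_range_succ, ih, ← Set.ncard_union_eq hd1
        ((hfin (2 * M * J)).subset
          (fun y (hy : h y < 2 * M * J) => (Nat.le_of_lt hy : h y ≤ 2 * M * J))) (hwin J)]
      congr 1
      ext y
      change (h y < 2 * M * J ∨ (2 * M * J ≤ h y ∧ h y < 2 * M * (J + 1))) ↔
        h y < 2 * M * (J + 1)
      have : 2 * M * J ≤ 2 * M * (J + 1) := Nat.mul_le_mul_left _ (by omega)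
      omega
  have hle : {y : O | h y < 2 * M * J}.ncard ≤ (ball S x n).ncard := by
    refine Set.ncard_le_ncard_of_injOn (fun y : O => y.1) ?_ ?_ (ball_finite hSf n)
    · intro y hy
      have h2 : dist' S x y.1 < 2 * M * J * c₀ :=
        (Nat.div_lt_iff_lt_mul (by omega)).1 hy
      exact ball_mono (by omega) (mem_ball_dist' hS y.2)
    · intro a _ b _ hab
      exact Subtype.ext hab
  refine le_trans ?_ hle
  rw [← hsum J]
  calc (w + 1) * (J - (2 * M + 1) ^ (w + 1) * ((w + 2) ^ (w + 1)) ^ k)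
      ≤ (w + 1) * ((Finset.range J).filter (fun i => ¬ (Win h M i).ncard ≤ w)).card := by
        apply Nat.mul_le_mul_left
        have := Finset.card_filter_add_card_filter_not (s := Finset.range J)
          (fun i => (Win h M i).ncard ≤ w)
        rw [Finset.card_range] at this
        omega
    _ = ∑ i ∈ (Finset.range J).filter (fun i => ¬ (Win h M i).ncard ≤ w), (w + 1) := by
        rw [Finset.sum_const, smul_eq_mul, mul_comm]
    _ ≤ ∑ i ∈ (Finset.range J).filter (fun i => ¬ (Win h M i).ncard ≤ w), (Win h M i).ncard := by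
        apply Finset.sum_le_sum
        intro i hi
        have := (Finset.mem_filter.1 hi).2
        omega
    _ ≤ ∑ i ∈ Finset.range J, (Win h M i).ncard := by
        apply Finset.sum_le_sum_of_subset
        exact Finset.filter_subset _ _

/-- The asymptotic estimate. -/
theorem asymptotic (M c₀ τ : ℕ) (hM : 1 ≤ M) (hc : 1 ≤ c₀) :
    ∃ c : ℝ, 0 < c ∧ ∃ n₀ : ℕ, ∀ n ≥ n₀, ∀ V : ℕ,
      (∀ w J : ℕ, 2 * M * J * c₀ ≤ n + 1 →
        (w + 1) * (J - (2 * M + 1) ^ (w + 1) * ((w + 2) ^ (w + 1)) ^ τ) ≤ V) →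
      c * n * Real.log n / Real.log (Real.log n) ≤ V := by
  set ε : ℝ := 1 / (4 * (1 + τ)) with hε
  have hτ : (0 : ℝ) ≤ τ := Nat.cast_nonneg τ
  have hε0 : 0 < ε := by positivity
  set B : ℕ := 2 * M * c₀ with hB
  have hB1 : 1 ≤ B := by
    rw [hB]
    have : 0 < 2 * M * c₀ := by positivity
    omega
  have hBr : (1 : ℝ) ≤ B := by exact_mod_cast hB1
  have hL : Tendsto (fun n : ℕ => Real.log n) atTop atTop :=
    Real.tendsto_log_atTop.comp tendsto_natCast_atTop_atTop
  have hl : Tendsto (fun n : ℕ => Real.log (Real.log n)) atTop atTop :=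
    Real.tendsto_log_atTop.comp hL
  have hlo : ∀ᶠ n : ℕ in atTop, (1 + (τ : ℝ)) * Real.log (Real.log n) ≤ Real.log n / 4 := by
    have h1 : Tendsto (fun x : ℝ => Real.log x / x) atTop (nhds 0) := by
      have := Real.isLittleO_log_id_atTop.tendsto_div_nhds_zero
      simpa using this
    have h2 := (h1.comp hL).eventually (gt_mem_nhds (show (0 : ℝ) < 1 / (4 * (1 + τ)) by positivity))
    filter_upwards [h2, hL.eventually_gt_atTop 0] with n h3 h4
    simp only [Function.comp] at h3
    rw [div_lt_iff₀ h4] at h3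
    have h5 : (0 : ℝ) < 1 + τ := by positivity
    calc (1 + (τ : ℝ)) * Real.log (Real.log n) ≤ (1 + τ) * (1 / (4 * (1 + τ)) * Real.log n) :=
          mul_le_mul_of_nonneg_left h3.le h5.le
      _ = Real.log n / 4 := by field_simp
  have hev : ∀ᶠ n : ℕ in atTop, (1 + (τ : ℝ)) * Real.log (Real.log n) ≤ Real.log n / 4 ∧
      1 ≤ Real.log (Real.log n) ∧ 4 ≤ Real.log n ∧
      Real.log (2 * M + 1) ≤ Real.log (Real.log n) ∧ ((4 * B) ^ 2 : ℕ) ≤ n := by
    filter_upwards [hlo, hl.eventually_ge_atTop 1, hL.eventually_ge_atTop 4,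
      hl.eventually_ge_atTop (Real.log (2 * M + 1)), eventually_ge_atTop ((4 * B) ^ 2)]
      with n h1 h2 h3 h4 h5
    exact ⟨h1, h2, h3, h4, h5⟩
  obtain ⟨n₀, hn₀⟩ := eventually_atTop.1 hev
  refine ⟨ε / (2 * B), by positivity, n₀, ?_⟩
  intro n hn V hV
  obtain ⟨h1, h2, h3, h4, h5⟩ := hn₀ n hn
  set L := Real.log n with hLdef
  set l := Real.log L with hldef
  have hL0 : 0 < L := by linarith
  have hl0 : 0 < l := by linarith
  set w := ⌊ε * L / l⌋₊ with hw
  have hw1 : (w : ℝ) ≤ ε * L / l := Nat.floor_le (by positivity)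
  have hw2 : ε * L / l < w + 1 := Nat.lt_floor_add_one _
  have hn1 : 1 ≤ n := by
    have : 0 < (4 * B) ^ 2 := by positivity
    omega
  have hnr : (0 : ℝ) < n := by exact_mod_cast hn1
  -- size of w
  have hεs : ε ≤ 1 / 4 := by
    rw [hε]
    apply one_div_le_one_div_of_le (by norm_num)
    nlinarith
  have hwL : (w : ℝ) + 2 ≤ L := by
    have : ε * L / l ≤ L / 4 := by
      rw [div_le_iff₀ hl0]
      nlinarith [mul_le_mul_of_nonneg_right hεs hL0.le, mul_le_mul_of_nonneg_left h2 hL0.le]
    linarith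
  have hlogw : Real.log (w + 2) ≤ l := by
    rw [hldef]
    exact Real.log_le_log (by positivity) hwL
  -- the number of codes
  set Kc := (2 * M + 1) ^ (w + 1) * ((w + 2) ^ (w + 1)) ^ τ with hK
  have hKe : (Kc : ℝ) = Real.exp (((w : ℝ) + 1) * (Real.log (2 * M + 1) + τ * Real.log (w + 2))) := by
    rw [hK]
    push_cast
    have e1 : ((2 : ℝ) * M + 1) ^ (w + 1) = Real.exp (((w : ℝ) + 1) * Real.log (2 * M + 1)) := by
      have : ((w : ℝ) + 1) = ((w + 1 : ℕ) : ℝ) := by push_cast; ring
      rw [this, Real.exp_nat_mul, Real.exp_log (by positivity)]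
    have e2 : (((w : ℝ) + 2) ^ (w + 1)) ^ τ =
        Real.exp (((w : ℝ) + 1) * (τ * Real.log (w + 2))) := by
      have : ((w : ℝ) + 1) * (τ * Real.log (w + 2)) =
          (((w + 1) * τ : ℕ) : ℝ) * Real.log (w + 2) := by push_cast; ring
      rw [this, Real.exp_nat_mul, Real.exp_log (by positivity), pow_mul]
    rw [e1, e2, ← Real.exp_add]
    congr 1
    ring
  have hKle : (Kc : ℝ) ≤ Real.exp (L / 2) := by
    rw [hKe]
    apply Real.exp_le_exp.2
    have e1 : Real.log (2 * M + 1) + τ * Real.log (w + 2) ≤ (1 + τ) * l := by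
      have := mul_le_mul_of_nonneg_left hlogw hτ
      linarith
    have e2 : ((w : ℝ) + 1) * ((1 + τ) * l) ≤ L / 2 := by
      have e3 : (w : ℝ) * l ≤ ε * L := by
        have := mul_le_mul_of_nonneg_right hw1 hl0.le
        rwa [div_mul_cancel₀ _ hl0.ne'] at this
      have e4 : (1 + (τ : ℝ)) * (ε * L) = L / 4 := by
        rw [hε]
        field_simp
      calc ((w : ℝ) + 1) * ((1 + τ) * l) = (1 + τ) * (w * l) + (1 + τ) * l := by ring
        _ ≤ (1 + τ) * (ε * L) + L / 4 := by
          have : (0 : ℝ) ≤ 1 + τ := by positivity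
          have := mul_le_mul_of_nonneg_left e3 this
          linarith
        _ = L / 2 := by rw [e4]; ring
    calc ((w : ℝ) + 1) * (Real.log (2 * M + 1) + τ * Real.log (w + 2))
        ≤ ((w : ℝ) + 1) * ((1 + τ) * l) := mul_le_mul_of_nonneg_left e1 (by positivity)
      _ ≤ L / 2 := e2
  have hexp : Real.exp (L / 2) = Real.sqrt n := by
    rw [Real.sqrt_eq_rpow, Real.rpow_def_of_pos hnr, hLdef]
    congr 1
    ring
  have hsq : Real.sqrt n ≤ n / (4 * B) := by
    have h6 : ((4 : ℝ) * B) ^ 2 ≤ n := by exact_mod_cast h5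
    have h7 : (4 : ℝ) * B ≤ Real.sqrt n := Real.le_sqrt_of_sq_le h6
    rw [le_div_iff₀ (by positivity)]
    calc Real.sqrt n * (4 * B) ≤ Real.sqrt n * Real.sqrt n :=
          mul_le_mul_of_nonneg_left h7 (Real.sqrt_nonneg _)
      _ = n := Real.mul_self_sqrt hnr.le
  -- J
  set J := n / B with hJ
  have hJ1 : 2 * M * J * c₀ ≤ n + 1 := by
    have : B * (n / B) ≤ n := Nat.mul_div_le n B
    calc 2 * M * J * c₀ = B * (n / B) := by rw [hB, hJ]; ring
      _ ≤ n + 1 := by omega
  have hJ2 : (n : ℝ) / B - 1 ≤ J := by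
    have h8 : n < B * (J + 1) := by
      rw [hJ]
      exact Nat.lt_mul_div_succ n (by omega)
    have h9 : (n : ℝ) < B * (J + 1) := by exact_mod_cast h8
    have : (n : ℝ) / B < J + 1 := by
      rw [div_lt_iff₀ (by positivity)]
      linarith
    linarith
  have hmain := hV w J hJ1
  have hmain' : ((w : ℝ) + 1) * ((J : ℝ) - Kc) ≤ V := by
    have h10 : ((w : ℝ) + 1) * ((J - Kc : ℕ) : ℝ) ≤ V := by exact_mod_cast hmain
    have h11 : (J : ℝ) - Kc ≤ ((J - Kc : ℕ) : ℝ) := by
      rcases le_total Kc J with h | h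
      · rw [Nat.cast_sub h]
      · rw [Nat.sub_eq_zero_of_le h]
        have : (J : ℝ) ≤ Kc := by exact_mod_cast h
        simp
        linarith
    calc ((w : ℝ) + 1) * ((J : ℝ) - Kc) ≤ ((w : ℝ) + 1) * ((J - Kc : ℕ) : ℝ) :=
          mul_le_mul_of_nonneg_left h11 (by positivity)
      _ ≤ V := h10
  have hJK : (n : ℝ) / (2 * B) ≤ J - Kc := by
    have h12 : (4 : ℝ) * B ≤ n := by
      have h6 : ((4 : ℝ) * B) ^ 2 ≤ n := by exact_mod_cast h5
      nlinarith
    have h13 : (1 : ℝ) ≤ n / (4 * B) := by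
      rw [le_div_iff₀ (by positivity)]
      linarith
    have h14 : (Kc : ℝ) ≤ n / (4 * B) := hKle.trans (hexp ▸ hsq)
    have h15 : (n : ℝ) / B = 4 * (n / (4 * B)) := by
      field_simp
    have h16 : (n : ℝ) / (2 * B) = 2 * (n / (4 * B)) := by
      field_simp
      norm_num
    linarith
  calc ε / (2 * B) * n * L / l = (ε * L / l) * (n / (2 * B)) := by ring
    _ ≤ ((w : ℝ) + 1) * (n / (2 * B)) := mul_le_mul_of_nonneg_right hw2.le (by positivity)
    _ ≤ ((w : ℝ) + 1) * ((J : ℝ) - Kc) := mul_le_mul_of_nonneg_left hJK (by positivity)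
    _ ≤ V := hmain'

end Main

end Vale.Agent.H19
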