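import Mathlib

/-!
# Algebraic algebras over uncountable fields stay algebraic after a finite scalar extension

A self-contained proof (the specialisation argument going back to Amitsur).
-/

namespace Vale.H19.Kurosh

open scoped TensorProduct
open Polynomial

section Spec

variable {F : Type*} [Field F] {A : Type*} [Ring A] [Algebra F A]

/-- Evaluation of the variable at a scalar, as an algebra map `F[X] ⊗ A → A`. -/
noncomputable def ev (A : Type*) [Ring A] [Algebra F A] (l : F) : F[X] ⊗[F] A →ₐ[F] A :=
  Algebra.TensorProduct.lift ((Algebra.ofId F A).comp (Polynomial.aeval l)) (AlgHom.id F A)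
    (fun p a => by
      simpa using Algebra.commute_algebraMap_left _ _)

@[simp] theorem ev_tmul (l : F) (p : F[X]) (a : A) : ev A l (p ⊗ₜ a) = p.eval l • a := by
  simp [ev, Algebra.ofId_apply, Algebra.smul_def]

/-- The `F[X]`-basis of `F[X] ⊗ A`. -/
noncomputable def pb (F A : Type*) [Field F] [Ring A] [Algebra F A] :
    Module.Basis (Module.Free.ChooseBasisIndex F A) F[X] (F[X] ⊗[F] A) :=
  Algebra.TensorProduct.basis F[X] (Module.Free.chooseBasis F A)

theorem ev_repr (l : F) (x : F[X] ⊗[F] A) (i) :
    (Module.Free.chooseBasis F A).repr (ev A l x) i = ((pb F A).repr x i).eval l := by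
  induction x using TensorProduct.induction_on with
  | zero => simp
  | tmul p a =>
    simp [pb, Algebra.TensorProduct.basis_repr_tmul]
  | add x y hx hy => simp [hx, hy]

/-- Linear independence over `F[X]` survives specialisation outside the roots of one nonzero
polynomial. -/
theorem exists_good_poly {n : ℕ} (v : Fin n → F[X] ⊗[F] A) (hv : LinearIndependent F[X] v) :
    ∃ h : F[X], h ≠ 0 ∧ ∀ l : F, h.eval l ≠ 0 → LinearIndependent F (fun j => ev A l (v j)) := by
  classical
  let ι := Module.Free.ChooseBasisIndex F A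
  let Q := FractionRing F[X]
  let m : (F[X] ⊗[F] A) →ₗ[F[X]] (ι →₀ Q) :=
    (Finsupp.mapRange.linearMap (Algebra.linearMap F[X] Q)).comp (pb F A).repr.toLinearMap
  have hm : ∀ x i, m x i = algebraMap F[X] Q ((pb F A).repr x i) := fun x i => by
    simp [m]
  have hmi : Function.Injective m := by
    intro x y hxy
    apply (pb F A).repr.injective
    ext1 i
    have := DFunLike.congr_fun hxy i
    rw [hm, hm] at this
    exact IsFractionRing.injective F[X] Q this
  have hu : LinearIndependent F[X] (fun j => m (v j)) := hv.map' m (LinearMap.ker_eq_bot.mpr hmi)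
  have huQ : LinearIndependent Q (fun j => m (v j)) :=
    (LinearIndependent.iff_fractionRing F[X] Q).mp hu
  obtain ⟨g, hg⟩ := (Finsupp.linearCombination Q (fun j => m (v j))).exists_leftInverse_of_injective
    (by rw [LinearMap.ker_eq_bot]; exact huQ)
  have hgj : ∀ j, g (m (v j)) = Finsupp.single j 1 := by
    intro j
    have := LinearMap.congr_fun hg (Finsupp.single j 1)
    simpa using this
  -- common denominator
  let I : Finset ι := Finset.univ.biUnion (fun j => ((pb F A).repr (v j)).support)
  let s : Finset Q := Finset.univ.biUnion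
    (fun k : Fin n => I.image (fun i => g (Finsupp.single i 1) k))
  obtain ⟨h, hh⟩ := IsLocalization.exist_integer_multiples_of_finset (nonZeroDivisors F[X]) s
  have hh' : ∀ i ∈ I, ∀ k, ∃ c : F[X], algebraMap F[X] Q c
      = algebraMap F[X] Q h * g (Finsupp.single i 1) k := by
    intro i hi k
    obtain ⟨c, hc⟩ := hh (g (Finsupp.single i 1) k) (by
      simp only [s, Finset.mem_biUnion, Finset.mem_univ, true_and, Finset.mem_image]
      exact ⟨k, i, hi, rfl⟩)
    exact ⟨c, by rw [hc, Algebra.smul_def]⟩
  have hexγ : ∀ i k, ∃ c : F[X], i ∈ I → algebraMap F[X] Q c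
      = algebraMap F[X] Q h * g (Finsupp.single i 1) k := by
    intro i k
    by_cases hi : i ∈ I
    · obtain ⟨c, hc⟩ := hh' i hi k
      exact ⟨c, fun _ => hc⟩
    · exact ⟨0, fun h => absurd h hi⟩
  choose γ hγ using hexγ
  have key : ∀ j k, ∑ i ∈ I, (pb F A).repr (v j) i * γ i k = if j = k then (h : F[X]) else 0 := by
    intro j k
    apply IsFractionRing.injective F[X] Q
    rw [map_sum]
    have h1 : m (v j) = ∑ i ∈ I, (algebraMap F[X] Q ((pb F A).repr (v j) i)) •
        (Finsupp.single i (1 : Q)) := by
      ext i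
      rw [Finsupp.finsetSum_apply, hm]
      simp only [Finsupp.smul_apply, Finsupp.single_apply, smul_eq_mul, mul_ite, mul_one,
        mul_zero, Finset.sum_ite_eq']
      split_ifs with hi
      · rfl
      · have : (pb F A).repr (v j) i = 0 := by
          by_contra hne
          exact hi (Finset.mem_biUnion.mpr ⟨j, Finset.mem_univ _, Finsupp.mem_support_iff.mpr hne⟩)
        rw [this, map_zero]
    have h2 := congrArg (fun z => algebraMap F[X] Q h * z k) (hgj j)
    rw [h1, map_sum, Finsupp.finsetSum_apply, Finset.mul_sum] at h2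
    rw [show (∑ i ∈ I, algebraMap F[X] Q ((pb F A).repr (v j) i * γ i k)) =
      ∑ i ∈ I, algebraMap F[X] Q h * (g ((algebraMap F[X] Q ((pb F A).repr (v j) i)) •
        (Finsupp.single i (1 : Q)))) k from ?_, h2]
    · rw [Finsupp.single_apply]
      split_ifs <;> simp
    · refine Finset.sum_congr rfl fun i hi => ?_
      rw [map_mul, hγ i k hi, map_smul, Finsupp.smul_apply, smul_eq_mul]
      ring
  refine ⟨h, nonZeroDivisors.ne_zero h.2, fun l hl => ?_⟩
  rw [Fintype.linearIndependent_iff]
  intro a ha k
  have hcoord : ∀ i, ∑ j, a j * ((pb F A).repr (v j) i).eval l = 0 := by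
    intro i
    have := congrArg (fun z => (Module.Free.chooseBasis F A).repr z i) ha
    simp only [map_sum, map_smul, map_zero, Finsupp.zero_apply] at this
    rw [Finsupp.finsetSum_apply] at this
    rw [← this]
    refine Finset.sum_congr rfl fun j _ => ?_
    rw [Finsupp.smul_apply, ev_repr, smul_eq_mul]
  have h3 : a k * (h : F[X]).eval l = 0 := by
    calc a k * (h : F[X]).eval l
        = ∑ j, a j * (if j = k then (h : F[X]) else 0).eval l := by
          rw [Finset.sum_eq_single k]
          · rw [if_pos rfl]
          · intro j _ hj; rw [if_neg hj, eval_zero, mul_zero]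
          · intro hk; exact absurd (Finset.mem_univ _) hk
      _ = ∑ j, a j * ∑ i ∈ I, ((pb F A).repr (v j) i).eval l * (γ i k).eval l := by
          refine Finset.sum_congr rfl fun j _ => ?_
          rw [← key j k, eval_finsetSum]
          simp [eval_mul]
      _ = ∑ i ∈ I, (∑ j, a j * ((pb F A).repr (v j) i).eval l) * (γ i k).eval l := by
          simp only [Finset.mul_sum, Finset.sum_mul]
          rw [Finset.sum_comm]
          refine Finset.sum_congr rfl fun i _ => Finset.sum_congr rfl fun j _ => ?_
          ring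
      _ = 0 := by simp [hcoord]
  exact (mul_eq_zero.mp h3).resolve_right hl

/-- Over an uncountable field, every element of `F[X] ⊗ A`, `A` algebraic, satisfies a polynomial
relation over `F[X]`. -/
theorem exists_relation [Uncountable F] [Algebra.IsAlgebraic F A] (w : F[X] ⊗[F] A) :
    ∃ N : ℕ, ¬ LinearIndependent F[X] (fun j : Fin N => w ^ (j : ℕ)) := by
  classical
  by_contra hcon
  push Not at hcon
  choose h hne hh using fun N => exists_good_poly _ (hcon N)
  -- a scalar which is a root of none of the `h N`
  have hcount : (⋃ N, {l : F | (h N).eval l = 0}).Countable := by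
    apply Set.countable_iUnion
    intro N
    apply Set.Finite.countable
    refine ((h N).roots.toFinset.finite_toSet).subset ?_
    intro l hl
    simpa [hne N] using hl
  obtain ⟨l, hl⟩ : ∃ l : F, l ∉ ⋃ N, {l : F | (h N).eval l = 0} := by
    by_contra hall
    push Not at hall
    have : (Set.univ : Set F).Countable := hcount.mono (fun l _ => hall l)
    exact Set.not_countable_univ this
  simp only [Set.mem_iUnion, not_exists] at hl
  obtain ⟨p, hp0, hp⟩ := Algebra.IsAlgebraic.isAlgebraic (R := F) (ev A l w)
  have hind := hh (p.natDegree + 1) l (hl _)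
  rw [Fintype.linearIndependent_iff] at hind
  have h0 := hind (fun j => p.coeff j) (by
    rw [Fin.sum_univ_eq_sum_range (fun j => p.coeff j • (ev A l) (w ^ j)) (p.natDegree + 1)]
    rw [← hp, aeval_eq_sum_range]
    refine Finset.sum_congr rfl fun j _ => ?_
    rw [map_pow])
  apply hp0
  ext j
  rw [coeff_zero]
  by_cases hj : j < p.natDegree + 1
  · exact h0 ⟨j, hj⟩
  · exact coeff_eq_zero_of_natDegree_lt (by omega)

/-- Scalar extension along `F(θ)`. -/
theorem isAlgebraic_tensor_simple [Uncountable F] [Algebra.IsAlgebraic F A]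
    {E : Type*} [Field E] [Algebra F E] [FiniteDimensional F E] (θ : E)
    (hθ : Function.Surjective (aeval (R := F) θ)) : Algebra.IsAlgebraic F (E ⊗[F] A) := by
  classical
  constructor
  intro u
  let φ : F[X] ⊗[F] A →ₐ[F] E ⊗[F] A := Algebra.TensorProduct.map (aeval θ) (AlgHom.id F A)
  have hφs : Function.Surjective φ := by
    intro u
    induction u using TensorProduct.induction_on with
    | zero => exact ⟨0, map_zero _⟩
    | tmul e a =>
      obtain ⟨p, hp⟩ := hθ e
      exact ⟨p ⊗ₜ a, by simp [φ, hp]⟩
    | add x y hx hy =>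
      obtain ⟨x', rfl⟩ := hx
      obtain ⟨y', rfl⟩ := hy
      exact ⟨x' + y', map_add _ _ _⟩
  have hφsmul : ∀ (c : F[X]) (w : F[X] ⊗[F] A), φ (c • w) = (aeval θ c) • φ w := by
    intro c w
    induction w using TensorProduct.induction_on with
    | zero => simp
    | tmul p a => simp [φ, TensorProduct.smul_tmul']
    | add x y hx hy => rw [smul_add, map_add, hx, hy, map_add, smul_add]
  obtain ⟨w, rfl⟩ := hφs u
  obtain ⟨N, hN⟩ := exists_relation w
  rw [Fintype.linearIndependent_iff] at hN
  push Not at hN
  obtain ⟨c, hc, k, hk⟩ := hN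
  have hNk : (Finset.univ : Finset (Fin N)).Nonempty := ⟨k, Finset.mem_univ _⟩
  obtain ⟨c', hc', hgcd⟩ := Finset.extract_gcd c hNk
  have hg0 : Finset.univ.gcd c ≠ 0 := by
    intro h
    exact hk (by rw [hc' k (Finset.mem_univ _), h, zero_mul])
  have hrel : ∑ j : Fin N, c' j • w ^ (j : ℕ) = 0 := by
    have h1 : (Finset.univ.gcd c) • ∑ j : Fin N, c' j • w ^ (j : ℕ) = 0 := by
      rw [Finset.smul_sum, ← hc]
      refine Finset.sum_congr rfl fun j hj => ?_
      rw [smul_smul, ← hc' j hj]
    exact (smul_eq_zero.mp h1).resolve_left hg0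
  have hθi : IsIntegral F θ := Algebra.IsIntegral.isIntegral θ
  obtain ⟨j₀, hj₀⟩ : ∃ j, aeval θ (c' j) ≠ 0 := by
    by_contra hall
    push Not at hall
    have hdvd : ∀ j ∈ (Finset.univ : Finset (Fin N)), minpoly F θ ∣ c' j :=
      fun j _ => minpoly.dvd F θ (hall j)
    have := Finset.dvd_gcd hdvd
    rw [hgcd] at this
    exact (minpoly.not_isUnit F θ) (isUnit_of_dvd_one this)
  have halgE : IsAlgebraic E (φ w) := by
    refine ⟨∑ j : Fin N, C (aeval θ (c' j)) * X ^ (j : ℕ), ?_, ?_⟩
    · intro h
      apply hj₀
      have := congrArg (fun p => p.coeff (j₀ : ℕ)) h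
      simp only [finsetSum_coeff, coeff_C_mul, coeff_X_pow, coeff_zero] at this
      rw [Finset.sum_eq_single j₀] at this
      · simpa using this
      · intro j _ hj
        rw [if_neg (fun h => hj (Fin.ext h.symm)), mul_zero]
      · intro h; exact absurd (Finset.mem_univ _) h
    · have := congrArg φ hrel
      rw [map_zero, map_sum] at this
      rw [map_sum, ← this]
      refine Finset.sum_congr rfl fun j _ => ?_
      rw [hφsmul, map_mul, aeval_C, map_pow, aeval_X, map_pow, Algebra.smul_def]
  have hint : IsIntegral E (φ w) := isAlgebraic_iff_isIntegral.mp halgE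
  exact (isIntegral_trans (R := F) (φ w) hint).isAlgebraic

end Spec

universe u

section Step

variable {F F₁ A K : Type*} [Field F] [Ring A] [Algebra F A] [Field K] [Algebra F K]
  [Field F₁] [Algebra F F₁] [Algebra F₁ K] [IsScalarTower F F₁ K]

/-- The comparison map for a tower of scalar extensions. -/
noncomputable def towerMap (F F₁ A K : Type*) [Field F] [Ring A] [Algebra F A] [Field K]
    [Algebra F K] [Field F₁] [Algebra F F₁] [Algebra F₁ K] [IsScalarTower F F₁ K] :
    K ⊗[F] A →ₐ[F] (K ⊗[F₁] (F₁ ⊗[F] A)) :=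
  Algebra.TensorProduct.lift
    ((Algebra.TensorProduct.includeLeft : K →ₐ[F₁] (K ⊗[F₁] (F₁ ⊗[F] A))).restrictScalars F)
    (((Algebra.TensorProduct.includeRight :
      (F₁ ⊗[F] A) →ₐ[F₁] (K ⊗[F₁] (F₁ ⊗[F] A))).restrictScalars F).comp
      Algebra.TensorProduct.includeRight)
    (fun a b => by simp [Commute, SemiconjBy])

theorem towerMap_injective : Function.Injective (towerMap F F₁ A K) := by
  have h : ∀ x, towerMap F F₁ A K x
      = (TensorProduct.AlgebraTensorModule.cancelBaseChange F F₁ F₁ K A).symm x := by
    intro x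
    induction x using TensorProduct.induction_on with
    | zero => simp
    | tmul k a =>
      rw [TensorProduct.AlgebraTensorModule.cancelBaseChange_symm_tmul]
      have : towerMap F F₁ A K (k ⊗ₜ a) = (k ⊗ₜ[F₁] (1 : F₁ ⊗[F] A)) *
          ((1 : K) ⊗ₜ[F₁] ((1 : F₁) ⊗ₜ[F] a)) := rfl
      rw [this, Algebra.TensorProduct.tmul_mul_tmul, mul_one, one_mul]
    | add x y hx hy => rw [map_add, map_add, hx, hy]
  intro x y hxy
  rw [h, h] at hxy
  exact (TensorProduct.AlgebraTensorModule.cancelBaseChange F F₁ F₁ K A).symm.injective hxy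

theorem isAlgebraic_of_tower [FiniteDimensional F F₁]
    (h : Algebra.IsAlgebraic F₁ (K ⊗[F₁] (F₁ ⊗[F] A))) : Algebra.IsAlgebraic F (K ⊗[F] A) := by
  constructor
  intro x
  have h5 : IsIntegral F₁ (towerMap F F₁ A K x) := (h.isAlgebraic _).isIntegral
  have h6 : IsIntegral F (towerMap F F₁ A K x) := isIntegral_trans (R := F) _ h5
  exact ((isIntegral_algHom_iff (towerMap F F₁ A K) towerMap_injective).mp h6).isAlgebraic

end Step

open IntermediateField in
theorem isAlgebraic_tensor_aux (n : ℕ) : ∀ (F A K : Type u) [Field F] [Uncountable F] [Ring A]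
    [Algebra F A] [Algebra.IsAlgebraic F A] [Field K] [Algebra F K] [FiniteDimensional F K],
    Module.finrank F K ≤ n → Algebra.IsAlgebraic F (K ⊗[F] A) := by
  induction n with
  | zero =>
    intro F A K _ _ _ _ _ _ _ _ hn
    have := Module.finrank_pos (R := F) (M := K)
    omega
  | succ n ih =>
    intro F A K _ _ _ _ _ _ _ _ hn
    by_cases hK : ∀ x : K, ∃ y : F, algebraMap F K y = x
    · refine isAlgebraic_tensor_simple (0 : K) ?_
      intro x
      obtain ⟨y, rfl⟩ := hK x
      exact ⟨C y, by simp⟩
    · push Not at hK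
      obtain ⟨θ, hθ⟩ := hK
      have hint : IsIntegral F θ := Algebra.IsIntegral.isIntegral θ
      have hlt : Module.finrank F⟮θ⟯ K ≤ n := by
        have h1 : Module.finrank F F⟮θ⟯ * Module.finrank F⟮θ⟯ K = Module.finrank F K :=
          Module.finrank_mul_finrank F F⟮θ⟯ K
        have h2 : Module.finrank F F⟮θ⟯ ≠ 1 := by
          intro h
          rw [IntermediateField.finrank_eq_one_iff] at h
          have : θ ∈ (⊥ : IntermediateField F K) := h ▸ mem_adjoin_simple_self F θ
          obtain ⟨y, hy⟩ := IntermediateField.mem_bot.mp this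
          exact hθ y hy
        have h3 : 0 < Module.finrank F F⟮θ⟯ := Module.finrank_pos
        have h4 : 0 < Module.finrank F⟮θ⟯ K := Module.finrank_pos
        have h5 : 2 ≤ Module.finrank F F⟮θ⟯ := by omega
        have h6 : 2 * Module.finrank F⟮θ⟯ K ≤ Module.finrank F K := by
          rw [← h1]; exact Nat.mul_le_mul_right _ h5
        omega
      have halg1 : Algebra.IsAlgebraic F (F⟮θ⟯ ⊗[F] A) := by
        refine isAlgebraic_tensor_simple (AdjoinSimple.gen F θ) ?_
        intro y
        obtain ⟨f, hf⟩ := (adjoin.powerBasis hint).exists_eq_aeval' y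
        exact ⟨f, hf.symm⟩
      have hunc : Uncountable F⟮θ⟯ := (algebraMap F F⟮θ⟯).injective.uncountable
      have halg2 : Algebra.IsAlgebraic F⟮θ⟯ (F⟮θ⟯ ⊗[F] A) := by
        constructor
        intro x
        exact (halg1.isAlgebraic x).extendScalars (algebraMap F F⟮θ⟯).injective
      exact isAlgebraic_of_tower (ih F⟮θ⟯ (F⟮θ⟯ ⊗[F] A) K hlt)

/-- An algebraic algebra over an uncountable field stays algebraic after any finite extension of
scalars. -/
theorem isAlgebraic_tensor (F A K : Type u) [Field F] [Uncountable F] [Ring A]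
    [Algebra F A] [Algebra.IsAlgebraic F A] [Field K] [Algebra F K] [FiniteDimensional F K] :
    Algebra.IsAlgebraic F (K ⊗[F] A) :=
  isAlgebraic_tensor_aux _ F A K le_rfl

end Vale.H19.Kurosh
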