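import Mathlib

/-!
# Simplicity of `D ⊗ E` for a central division algebra `D` and a field `E`
-/

namespace Vale.H19.Kurosh

open scoped TensorProduct

section Simple

variable (F D E : Type*) [Field F] [DivisionRing D] [Algebra F D]
  [Field E] [Algebra F E]

theorem nontrivial_tensor : Nontrivial (D ⊗[F] E) := by
  have hinj : Function.Injective (Algebra.TensorProduct.includeLeft : D →ₐ[F] D ⊗[F] E) :=
    Algebra.TensorProduct.includeLeft_injective (S := F)
      (FaithfulSMul.algebraMap_injective F E)
  exact hinj.nontrivial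

/-- The left `D`-basis of `D ⊗ E` coming from an `F`-basis of `E`. -/
noncomputable def tb : Module.Basis (Module.Free.ChooseBasisIndex F E) D (D ⊗[F] E) :=
  Algebra.TensorProduct.basis D (Module.Free.chooseBasis F E)

theorem tb_repr_mul_right (x : D ⊗[F] E) (d : D) (i) :
    (tb F D E).repr (x * (d ⊗ₜ 1)) i = (tb F D E).repr x i * d := by
  induction x using TensorProduct.induction_on with
  | zero => simp
  | tmul a e =>
    simp only [tb, Algebra.TensorProduct.tmul_mul_tmul, mul_one,
      Algebra.TensorProduct.basis_repr_tmul, Finsupp.smul_apply, Finsupp.mapRange_apply,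
      smul_eq_mul]
    rw [mul_assoc, mul_assoc, Algebra.commutes]
  | add x y hx hy =>
    rw [add_mul, map_add, map_add, Finsupp.add_apply, Finsupp.add_apply, hx, hy, add_mul]

theorem tb_repr_mul_left (x : D ⊗[F] E) (d : D) (i) :
    (tb F D E).repr ((d ⊗ₜ 1) * x) i = d * (tb F D E).repr x i := by
  have h : (d ⊗ₜ[F] (1 : E)) * x = d • x := by
    induction x using TensorProduct.induction_on with
    | zero => simp
    | tmul a e => simp [TensorProduct.smul_tmul']
    | add x y hx hy => rw [mul_add, smul_add, hx, hy]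
  rw [h, map_smul, Finsupp.smul_apply, smul_eq_mul]

variable [Algebra.IsCentral F D]

theorem isSimpleRing_tensor : IsSimpleRing (D ⊗[F] E) := by
  classical
  have := nontrivial_tensor F D E
  apply IsSimpleRing.of_eq_bot_or_eq_top
  intro I
  by_cases hI : I = ⊥
  · exact Or.inl hI
  right
  let b := tb F D E
  -- a nonzero element of minimal support
  have hex : ∃ n : ℕ, ∃ x : D ⊗[F] E, x ∈ I ∧ x ≠ 0 ∧ (b.repr x).support.card = n := by
    by_contra hcon
    apply hI
    rw [eq_bot_iff]
    intro x hx
    by_contra hx0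
    exact hcon ⟨_, x, hx, fun h => hx0 (by rw [h]; exact TwoSidedIdeal.zero_mem _), rfl⟩
  obtain ⟨x, hxI, hx0, hxn⟩ := Nat.find_spec hex
  have hmin : ∀ y : D ⊗[F] E, y ∈ I → (b.repr y).support.card < (b.repr x).support.card →
      y = 0 := by
    intro y hy hlt
    by_contra hy0
    rw [hxn] at hlt
    exact Nat.find_min hex hlt ⟨y, hy, hy0, rfl⟩
  have hrx : b.repr x ≠ 0 := by
    intro h
    exact hx0 (by simpa using h)
  obtain ⟨i₀, hi₀⟩ := Finsupp.support_nonempty_iff.mpr hrx
  set d₀ := b.repr x i₀ with hd₀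
  have hd₀0 : d₀ ≠ 0 := Finsupp.mem_support_iff.mp hi₀
  set z : D ⊗[F] E := (d₀⁻¹ ⊗ₜ 1) * x with hz
  have hzI : z ∈ I := I.mul_mem_left _ _ hxI
  have hzr : ∀ i, b.repr z i = d₀⁻¹ * b.repr x i := fun i => tb_repr_mul_left F D E x _ i
  have hz1 : b.repr z i₀ = 1 := by rw [hzr, ← hd₀, inv_mul_cancel₀ hd₀0]
  have hcomm : ∀ (d : D) (i), d * b.repr z i = b.repr z i * d := by
    intro d i
    have hy : (d ⊗ₜ[F] (1 : E)) * z - z * (d ⊗ₜ 1) ∈ I :=
      I.sub_mem (I.mul_mem_left _ _ hzI) (I.mul_mem_right _ _ hzI)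
    have hyr : ∀ j, b.repr ((d ⊗ₜ[F] (1 : E)) * z - z * (d ⊗ₜ 1)) j
        = d * b.repr z j - b.repr z j * d := by
      intro j
      rw [map_sub, Finsupp.sub_apply]
      rw [show b.repr ((d ⊗ₜ[F] (1 : E)) * z) j = d * b.repr z j from
        tb_repr_mul_left F D E z d j, show b.repr (z * (d ⊗ₜ 1)) j = b.repr z j * d from
        tb_repr_mul_right F D E z d j]
    have h0 := hmin _ hy (by
      apply Finset.card_lt_card
      rw [Finset.ssubset_iff_of_subset]
      · refine ⟨i₀, hi₀, ?_⟩
        rw [Finsupp.notMem_support_iff, hyr, hz1, mul_one, one_mul, sub_self]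
      · intro j hj
        rw [Finsupp.mem_support_iff, hyr, hzr] at hj
        rw [Finsupp.mem_support_iff]
        intro h
        apply hj
        rw [h]; simp)
    have := hyr i
    rw [h0, map_zero, Finsupp.zero_apply] at this
    exact (sub_eq_zero.mp this.symm)
  -- so all coefficients are central
  have hcen : ∀ i, ∃ l : F, algebraMap F D l = b.repr z i := by
    intro i
    have : b.repr z i ∈ Subalgebra.center F D := by
      rw [Subalgebra.mem_center_iff]
      intro d
      exact hcomm d i
    obtain ⟨a, ha⟩ := (Algebra.IsCentral.mem_center_iff F).mp this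
    exact ⟨a, ha.symm⟩
  choose l hl using hcen
  -- z = 1 ⊗ e
  have hze : z = 1 ⊗ₜ[F] (∑ i ∈ (b.repr z).support, l i • Module.Free.chooseBasis F E i) := by
    conv_lhs => rw [← b.linearCombination_repr z]
    rw [Finsupp.linearCombination_apply, Finsupp.sum, TensorProduct.tmul_sum]
    refine Finset.sum_congr rfl fun i _ => ?_
    rw [← hl i]
    simp only [b, tb, Algebra.TensorProduct.basis_apply, TensorProduct.smul_tmul', smul_eq_mul,
      mul_one]
    rw [Algebra.algebraMap_eq_smul_one, TensorProduct.smul_tmul]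
  set e := ∑ i ∈ (b.repr z).support, l i • Module.Free.chooseBasis F E i with he
  have hz0 : z ≠ 0 := by
    intro h
    rw [h, map_zero, Finsupp.zero_apply] at hz1
    exact zero_ne_one hz1
  have he0 : e ≠ 0 := by
    intro h
    apply hz0
    rw [hze, h, TensorProduct.tmul_zero]
  have h1 : (1 : D ⊗[F] E) ∈ I := by
    have := I.mul_mem_left (1 ⊗ₜ e⁻¹) _ hzI
    rw [hze, Algebra.TensorProduct.tmul_mul_tmul, one_mul, inv_mul_cancel₀ he0] at this
    exact this
  rw [eq_top_iff]
  intro y _
  have := I.mul_mem_left y _ h1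
  rwa [mul_one] at this

end Simple

end Vale.H19.Kurosh
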