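import Mathlib
import Vale.Agent.H19.KuroshSimple

/-!
# Modules over `D ⊗ E`: the dimension of the simple module
-/

namespace Vale.H19.Kurosh

open scoped TensorProduct

section General

variable {R : Type*} [Ring R] [IsSimpleRing R] [IsArtinianRing R]

/-- All simple modules over a simple Artinian ring are isomorphic. -/
theorem simple_equiv (V W : Type*) [AddCommGroup V] [AddCommGroup W] [Module R V] [Module R W]
    [IsSimpleModule R V] [IsSimpleModule R W] : Nonempty (V ≃ₗ[R] W) := by
  obtain ⟨I, ⟨e⟩⟩ := IsSemisimpleRing.exists_linearEquiv_ideal_of_isSimpleModule R V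
  obtain ⟨J, ⟨f⟩⟩ := IsSemisimpleRing.exists_linearEquiv_ideal_of_isSimpleModule R W
  have hI : IsSimpleModule R I := IsSimpleModule.congr e.symm
  have hJ : IsSimpleModule R J := IsSimpleModule.congr f.symm
  obtain ⟨g⟩ := IsSimpleRing.isIsotypic R R J I
  exact ⟨e.trans (g.trans f.symm)⟩

/-- A finite module over a simple Artinian ring is a power of any simple module. -/
theorem exists_equiv_pow (V S : Type*) [AddCommGroup V] [AddCommGroup S] [Module R V]
    [Module R S] [IsSimpleModule R S] [Module.Finite R V] : ∃ n : ℕ, Nonempty (V ≃ₗ[R] (Fin n → S)) := by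
  have h : IsIsotypicOfType R V S := fun m _ => simple_equiv _ _
  exact h.linearEquiv_fun

/-- Divisibility of dimensions. -/
theorem finrank_dvd {D : Type*} [DivisionRing D] [Module D R] (V S : Type*)
    [AddCommGroup V] [AddCommGroup S] [Module R V] [Module D V] [IsScalarTower D R V]
    [Module R S] [Module D S] [IsScalarTower D R S] [IsSimpleModule R S] [Module.Finite R V]
    [Module.Finite D S] :
    ∃ n : ℕ, Nonempty (V ≃ₗ[R] (Fin n → S)) ∧ Module.finrank D V = n * Module.finrank D S := by
  obtain ⟨n, ⟨e⟩⟩ := exists_equiv_pow (R := R) V S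
  refine ⟨n, ⟨e⟩, ?_⟩
  have e' : V ≃ₗ[D] (Fin n → S) := e.restrictScalars D
  rw [e'.finrank_eq, Module.finrank_pi_fintype]
  simp

end General

section BiSec

variable {F D : Type*} [Field F] [DivisionRing D] [Algebra F D]
variable {E V : Type*} [Field E] [Algebra F E] [AddCommGroup V] [Module D V] [Module F V]
  [IsScalarTower F D V]

/-- A `D`-space together with an action of the field `E`, as a module over `D ⊗ E`. -/
def Bi (_ρ : E →ₐ[F] Module.End D V) : Type _ := V

variable (ρ : E →ₐ[F] Module.End D V)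

instance : AddCommGroup (Bi ρ) := inferInstanceAs (AddCommGroup V)
instance : Module D (Bi ρ) := inferInstanceAs (Module D V)
instance : Module F (Bi ρ) := inferInstanceAs (Module F V)
instance : IsScalarTower F D (Bi ρ) := inferInstanceAs (IsScalarTower F D V)

instance : Module E (Bi ρ) where
  smul x v := ρ x v
  one_smul v := by change ρ 1 v = v; rw [map_one]; rfl
  mul_smul x y v := by change ρ (x * y) v = ρ x (ρ y v); rw [map_mul]; rfl
  smul_zero x := by change ρ x 0 = 0; rw [map_zero]
  smul_add x v w := (ρ x).map_add (v : V) w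
  add_smul x y v := by change ρ (x + y) v = ρ x v + ρ y v; rw [map_add]; rfl
  zero_smul v := by change ρ 0 v = 0; rw [map_zero]; rfl

theorem Bi.smul_def (x : E) (v : Bi ρ) : x • v = (ρ x v : V) := rfl

instance : IsScalarTower F E (Bi ρ) where
  smul_assoc a x v := by
    change ρ (a • x) v = a • (ρ x v)
    rw [map_smul]; rfl

instance : SMulCommClass D E (Bi ρ) where
  smul_comm d x v := ((ρ x).map_smul d (v : V)).symm

instance : Module (D ⊗[F] E) (Bi ρ) := TensorProduct.Algebra.module

theorem Bi.tmul_smul (d : D) (x : E) (v : Bi ρ) : (d ⊗ₜ[F] x) • v = d • x • v := rfl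

instance : IsScalarTower D (D ⊗[F] E) (Bi ρ) where
  smul_assoc d r v := by
    induction r using TensorProduct.induction_on with
    | zero => simp
    | tmul a e =>
      rw [TensorProduct.smul_tmul', Bi.tmul_smul, Bi.tmul_smul, smul_eq_mul, mul_smul]
    | add x y hx hy => rw [smul_add, add_smul, hx, hy, add_smul, smul_add]

instance : IsScalarTower F (D ⊗[F] E) (Bi ρ) where
  smul_assoc a r v := by
    rw [← algebraMap_smul D a r, smul_assoc, algebraMap_smul]

/-- A `D`-linear map, with source and target seen as `D ⊗ E`-modules. -/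
def Bi.homD {W : Type*} [AddCommGroup W] [Module D W] [Module F W] [IsScalarTower F D W]
    {ρ : E →ₐ[F] Module.End D V} {τ : E →ₐ[F] Module.End D W} (f : V →ₗ[D] W) :
    Bi ρ →ₗ[D] Bi τ where
  toFun := f
  map_add' := f.map_add
  map_smul' := f.map_smul

/-- A `D`-linear map commuting with the two actions of `E` is `D ⊗ E`-linear. -/
def Bi.homMk {W : Type*} [AddCommGroup W] [Module D W] [Module F W] [IsScalarTower F D W]
    {ρ : E →ₐ[F] Module.End D V} {τ : E →ₐ[F] Module.End D W} (f : V →ₗ[D] W)
    (hf : ∀ (x : E) (v : V), f (ρ x v) = τ x (f v)) : Bi ρ →ₗ[D ⊗[F] E] Bi τ where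
  toFun := Bi.homD (ρ := ρ) (τ := τ) f
  map_add' := (Bi.homD (ρ := ρ) (τ := τ) f).map_add
  map_smul' r v := by
    induction r using TensorProduct.induction_on with
    | zero => rw [zero_smul, RingHom.id_apply, zero_smul, map_zero]
    | tmul a e =>
      rw [RingHom.id_apply, Bi.tmul_smul, Bi.tmul_smul, map_smul]
      congr 1
      exact hf e v
    | add x y hx hy =>
      rw [RingHom.id_apply] at hx hy ⊢
      rw [add_smul, add_smul, map_add, hx, hy]

end BiSec

section Dim

variable (F D E : Type*) [Field F] [DivisionRing D] [Algebra F D]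
  [Field E] [Algebra F E] [FiniteDimensional F E]

instance [Algebra.IsCentral F D] : IsSimpleRing (D ⊗[F] E) := isSimpleRing_tensor F D E

instance : Module.Finite D (D ⊗[F] E) :=
  Module.Finite.of_basis (Algebra.TensorProduct.basis D (Module.finBasis F E))

theorem finrank_tensor : Module.finrank D (D ⊗[F] E) = Module.finrank F E := by
  rw [Module.finrank_eq_card_basis (Algebra.TensorProduct.basis D (Module.finBasis F E))]
  simp

instance : IsArtinianRing (D ⊗[F] E) := by
  have : IsArtinian D (D ⊗[F] E) := inferInstance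
  exact isArtinian_of_tower D this

theorem exists_simpleIdeal : ∃ I : Ideal (D ⊗[F] E), IsSimpleModule (D ⊗[F] E) I := by
  obtain ⟨S, hS⟩ := IsAtomic.exists_atom (Submodule (D ⊗[F] E) (D ⊗[F] E))
  exact ⟨S, isSimpleModule_iff_isAtom.mpr hS⟩

/-- A chosen simple module. -/
noncomputable def simpleIdeal : Ideal (D ⊗[F] E) := (exists_simpleIdeal F D E).choose

instance : IsSimpleModule (D ⊗[F] E) (simpleIdeal F D E) := (exists_simpleIdeal F D E).choose_spec

/-- The `D`-dimension of the simple `D ⊗ E`-module. -/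
noncomputable def sdim : ℕ := Module.finrank D (simpleIdeal F D E)

instance : Module.Finite D (simpleIdeal F D E) :=
  Module.Finite.of_injective ((simpleIdeal F D E).subtype.restrictScalars D)
    (simpleIdeal F D E).injective_subtype

theorem sdim_pos : 0 < sdim F D E := by
  have := IsSimpleModule.nontrivial (D ⊗[F] E) (simpleIdeal F D E)
  exact Module.finrank_pos

variable {F D E} in
theorem sdim_dvd [Algebra.IsCentral F D] (V : Type*) [AddCommGroup V] [Module D V]
    [Module (D ⊗[F] E) V] [IsScalarTower D (D ⊗[F] E) V] [Module.Finite D V] :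
    ∃ n : ℕ, Nonempty (V ≃ₗ[D ⊗[F] E] (Fin n → simpleIdeal F D E)) ∧
      Module.finrank D V = n * sdim F D E := by
  have : Module.Finite (D ⊗[F] E) V := Module.Finite.of_restrictScalars_finite D (D ⊗[F] E) V
  exact finrank_dvd (R := D ⊗[F] E) (D := D) V (simpleIdeal F D E)

end Dim

section Rho

variable (F D E : Type*) [Field F] [DivisionRing D] [Algebra F D]
  [Field E] [Algebra F E]

theorem dsmul_eq (d : D) (r : D ⊗[F] E) : d • r = (d ⊗ₜ[F] (1 : E)) * r := by
  induction r using TensorProduct.induction_on with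
  | zero => simp
  | tmul a e => simp [TensorProduct.smul_tmul']
  | add x y hx hy => rw [mul_add, smul_add, hx, hy]

variable [FiniteDimensional F E]

instance : IsScalarTower F D (simpleIdeal F D E) where
  smul_assoc a d s := by
    apply Subtype.ext
    change (a • d) • (s : D ⊗[F] E) = a • (d • (s : D ⊗[F] E))
    rw [smul_assoc]

/-- The action of `E` on the chosen simple module. -/
noncomputable def rhoS : E →ₐ[F] Module.End D (simpleIdeal F D E) where
  toFun x :=
    { toFun := fun s => ((1 : D) ⊗ₜ[F] x) • s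
      map_add' := fun s t => smul_add _ s t
      map_smul' := fun d s => by
        apply Subtype.ext
        change ((1 : D) ⊗ₜ[F] x) * (d • (s : D ⊗[F] E)) = d • (((1 : D) ⊗ₜ[F] x) * (s : D ⊗[F] E))
        rw [dsmul_eq, dsmul_eq, ← mul_assoc, ← mul_assoc]
        simp }
  map_one' := by
    ext s
    change (((1 : D) ⊗ₜ[F] (1 : E)) * (s : D ⊗[F] E)) = s
    rw [← Algebra.TensorProduct.one_def, one_mul]
  map_mul' x y := by
    ext s
    change (((1 : D) ⊗ₜ[F] (x * y)) * (s : D ⊗[F] E)) =
      ((1 : D) ⊗ₜ[F] x) * (((1 : D) ⊗ₜ[F] y) * (s : D ⊗[F] E))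
    rw [← mul_assoc]; simp
  map_zero' := by
    ext s
    change (((1 : D) ⊗ₜ[F] (0 : E)) * (s : D ⊗[F] E)) = 0
    simp
  map_add' x y := by
    ext s
    change (((1 : D) ⊗ₜ[F] (x + y)) * (s : D ⊗[F] E)) =
      ((1 : D) ⊗ₜ[F] x) * (s : D ⊗[F] E) + ((1 : D) ⊗ₜ[F] y) * (s : D ⊗[F] E)
    rw [TensorProduct.tmul_add, add_mul]
  commutes' a := by
    ext s
    change (((1 : D) ⊗ₜ[F] (algebraMap F E a)) * (s : D ⊗[F] E)) = a • (s : D ⊗[F] E)
    rw [Algebra.algebraMap_eq_smul_one, TensorProduct.tmul_smul, smul_mul_assoc,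
      ← Algebra.TensorProduct.one_def, one_mul]

theorem rhoS_coe (x : E) (s : simpleIdeal F D E) :
    ((rhoS F D E x s : simpleIdeal F D E) : D ⊗[F] E) =
      ((1 : D) ⊗ₜ[F] x) * (s : D ⊗[F] E) := rfl

/-- The chosen simple module, rebuilt from its two actions. -/
def toBi (s : simpleIdeal F D E) : Bi (rhoS F D E) := s

theorem toBi_smul (r : D ⊗[F] E) (s : simpleIdeal F D E) :
    toBi F D E (r • s) = r • toBi F D E s := by
  induction r using TensorProduct.induction_on with
  | zero => rw [zero_smul, zero_smul]; rfl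
  | tmul a e =>
    apply Subtype.ext
    change (a ⊗ₜ[F] e) * (s : D ⊗[F] E) = a • (((1 : D) ⊗ₜ[F] e) * (s : D ⊗[F] E))
    rw [dsmul_eq, ← mul_assoc]; simp
  | add x y hx hy =>
    rw [add_smul, add_smul, ← hx, ← hy]; rfl

/-- The chosen simple module, rebuilt from its two actions. -/
noncomputable def simpleBi : simpleIdeal F D E ≃ₗ[D ⊗[F] E] Bi (rhoS F D E) where
  toFun := toBi F D E
  map_add' _ _ := rfl
  map_smul' r s := toBi_smul F D E r s
  invFun := fun s => s
  left_inv _ := rfl
  right_inv _ := rfl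

instance : IsSimpleModule (D ⊗[F] E) (Bi (rhoS F D E)) := IsSimpleModule.congr (simpleBi F D E).symm

end Rho

section BC

variable {F D E E' V : Type*} [Field F] [DivisionRing D] [Algebra F D]
  [Field E] [Algebra F E]
  [Field E'] [Algebra F E'] [FiniteDimensional F E'] [Algebra E E'] [IsScalarTower F E E']
  [AddCommGroup V] [Module D V] [Module F V] [IsScalarTower F D V]

/-- Scalar extension of an action of `E` to an action of `E'`. -/
noncomputable def bcRho [FiniteDimensional E E'] (ρ : E →ₐ[F] Module.End D V) :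
    E' →ₐ[F] Module.End D (Fin (Module.finrank E E') → V) :=
  (endVecAlgEquivMatrixEnd (Fin (Module.finrank E E')) F D V).symm.toAlgHom.comp
    (ρ.mapMatrix.comp ((Algebra.leftMulMatrix (Module.finBasis E E')).restrictScalars F))

/-- The dimension of the simple module divides `[E' : E]` times any dimension over `E`. -/
theorem sdim_dvd_bc [Algebra.IsCentral F D] [Module.Finite D V] (ρ : E →ₐ[F] Module.End D V) :
    sdim F D E' ∣ Module.finrank E E' * Module.finrank D V := by
  have : FiniteDimensional E E' := FiniteDimensional.right F E E'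
  have h0 : Module.Finite D (Bi (bcRho (E' := E') ρ)) :=
    inferInstanceAs (Module.Finite D (Fin (Module.finrank E E') → V))
  obtain ⟨n, -, hn⟩ := sdim_dvd (F := F) (D := D) (E := E') (Bi (bcRho (E' := E') ρ))
  refine ⟨n, ?_⟩
  rw [mul_comm _ n, ← hn]
  change _ = Module.finrank D (Fin (Module.finrank E E') → V)
  rw [Module.finrank_pi_fintype]
  simp

/-- Restriction of the simple module for `E'` to `E`. -/
noncomputable abbrev resRho (F D E E' : Type*) [Field F] [DivisionRing D] [Algebra F D]
  [Field E] [Algebra F E] [Field E'] [Algebra F E'] [FiniteDimensional F E'] [Algebra E E']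
  [IsScalarTower F E E'] : E →ₐ[F] Module.End D (simpleIdeal F D E') :=
  (rhoS F D E').comp (IsScalarTower.toAlgHom F E E')

instance : Module.Finite D (Bi (resRho F D E E')) :=
  inferInstanceAs (Module.Finite D (simpleIdeal F D E'))

variable [FiniteDimensional F E]

theorem sdim_dvd_sdim [Algebra.IsCentral F D] : ∃ n : ℕ,
    Nonempty (Bi (resRho F D E E') ≃ₗ[D ⊗[F] E] (Fin n → simpleIdeal F D E)) ∧
      sdim F D E' = n * sdim F D E := by
  obtain ⟨n, e, hn⟩ := sdim_dvd (F := F) (D := D) (E := E) (Bi (resRho F D E E'))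
  exact ⟨n, e, hn⟩

theorem simple_of_sdim_eq [Algebra.IsCentral F D] (h : sdim F D E' = sdim F D E) :
    IsSimpleModule (D ⊗[F] E) (Bi (resRho F D E E')) := by
  obtain ⟨n, ⟨e⟩, hn⟩ := sdim_dvd_sdim (F := F) (D := D) (E := E) (E' := E')
  have h1 : n = 1 := by
    rw [h] at hn
    have := sdim_pos F D E
    nlinarith [Nat.eq_of_mul_eq_mul_right this (show 1 * sdim F D E = n * sdim F D E by
      rw [one_mul]; exact hn)]
  subst h1
  have e2 : (Fin 1 → simpleIdeal F D E) ≃ₗ[D ⊗[F] E] simpleIdeal F D E :=
    LinearEquiv.funUnique (Fin 1) _ _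
  exact IsSimpleModule.congr (e.trans e2)

end BC

end Vale.H19.Kurosh
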