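import Mathlib
import Vale.Agent.H19.KuroshMod
import Vale.Agent.H19.KuroshAlg

/-!
# The cyclic step
-/

namespace Vale.H19.Kurosh

open scoped TensorProduct

universe u v

/-- Every division algebra of finite dimension over `F` (in the given universe) is commutative. -/
def FinDivComm (F : Type u) [Field F] : Prop :=
  ∀ (Δ : Type v) [DivisionRing Δ] [Algebra F Δ] [Module.Finite F Δ] (x y : Δ), x * y = y * x

section NC

variable {F : Type u} [Field F]

/-- If a division algebra contains a finite field extension and an algebraic element inducing an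
automorphism of it by conjugation, then it contains a finite-dimensional division algebra seeing
both. -/
theorem auto_trivial (H : FinDivComm.{u, v} F) {T : Type v} [DivisionRing T] [Algebra F T]
    {E' : Type*} [Field E'] [Algebra F E'] [FiniteDimensional F E']
    (P : E' →ₐ[F] T) (σ : E' → E') (f : T) (hf0 : f ≠ 0) (hfi : IsIntegral F f)
    (hcomm : ∀ x, f * P x = P (σ x) * f) (x : E') : σ x = x := by
  classical
  let Ps : Submodule F T := P.range.toSubmodule
  let Qs : Submodule F T := (Algebra.adjoin F {f}).toSubmodule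
  have hPfg : Ps.FG := by
    have h1 : Ps = Submodule.map P.toLinearMap ⊤ := by
      ext t
      simp [Ps]
    rw [h1]
    exact Submodule.FG.map _ Module.Finite.fg_top
  have hQfg : Qs.FG := hfi.fg_adjoin_singleton
  have hPP : Ps * Ps ≤ Ps := by
    rw [Submodule.mul_le]
    intro a ha b hb
    exact P.range.mul_mem ha hb
  have hQQ : Qs * Qs ≤ Qs := by
    rw [Submodule.mul_le]
    intro a ha b hb
    exact (Algebra.adjoin F {f}).mul_mem ha hb
  have hfP : ∀ n : ℕ, ∀ x, ∃ y, f ^ n * P x = P y * f ^ n := by
    intro n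
    induction n with
    | zero => intro x; exact ⟨x, by simp⟩
    | succ n ih =>
      intro x
      obtain ⟨y, hy⟩ := ih (σ x)
      exact ⟨y, by rw [pow_succ, mul_assoc, hcomm, ← mul_assoc, hy, mul_assoc]⟩
  have hQP : Qs * Ps ≤ Ps * Qs := by
    rw [Submodule.mul_le]
    intro q hq p hp
    obtain ⟨x, rfl⟩ : ∃ x, P x = p := hp
    have hq' : q ∈ Submodule.span F (Submonoid.powers f : Set T) := by
      rw [Submonoid.powers_eq_closure, ← Algebra.adjoin_eq_span]
      exact hq
    clear hq
    induction hq' using Submodule.span_induction with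
    | mem q hq =>
      obtain ⟨n, rfl⟩ := hq
      obtain ⟨y, hy⟩ := hfP n x
      change f ^ n * P x ∈ _
      rw [hy]
      exact Submodule.mul_mem_mul ⟨y, rfl⟩
        (pow_mem (Algebra.subset_adjoin (Set.mem_singleton f)) n)
    | zero => rw [zero_mul]; exact Submodule.zero_mem _
    | add a b _ _ ha hb => rw [add_mul]; exact Submodule.add_mem _ ha hb
    | smul c a _ ha => rw [smul_mul_assoc]; exact Submodule.smul_mem _ _ ha
  let M : Submodule F T := Ps * Qs
  have hMM : M * M ≤ M := by
    calc M * M = Ps * (Qs * Ps) * Qs := by simp only [M, mul_assoc]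
      _ ≤ Ps * (Ps * Qs) * Qs := by gcongr
      _ = (Ps * Ps) * (Qs * Qs) := by simp only [mul_assoc]
      _ ≤ M := mul_le_mul' hPP hQQ
  have h1P : (1 : T) ∈ Ps := P.range.one_mem
  have h1Q : (1 : T) ∈ Qs := (Algebra.adjoin F {f}).one_mem
  let B : Subalgebra F T := M.toSubalgebra
    (by simpa using Submodule.mul_mem_mul h1P h1Q)
    (fun a b ha hb => hMM (Submodule.mul_mem_mul ha hb))
  have hBfin : Module.Finite F B := by
    have : M.FG := hPfg.mul hQfg
    exact (Submodule.fg_iff_finiteDimensional _).mp this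
  have hPB : ∀ x, P x ∈ B := fun x => by
    have : P x * 1 ∈ M := Submodule.mul_mem_mul ⟨x, rfl⟩ h1Q
    rwa [mul_one] at this
  have hfB : f ∈ B := by
    have : 1 * f ∈ M := Submodule.mul_mem_mul h1P
      (Algebra.subset_adjoin (Set.mem_singleton f))
    rwa [one_mul] at this
  let _ : DivisionRing B := divisionRingOfFiniteDimensional F B
  have hc := H B ⟨f, hfB⟩ ⟨P x, hPB x⟩
  have hc' : f * P x = P x * f := congrArg Subtype.val hc
  rw [hcomm] at hc'
  have := mul_right_cancel₀ hf0 hc'
  exact P.toRingHom.injective this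

/-- Endomorphisms of the simple module of an algebraic simple Artinian algebra are integral. -/
theorem end_integral {R : Type*} [Ring R] [Algebra F R] [IsSimpleRing R] [IsArtinianRing R]
    [Algebra.IsAlgebraic F R] {V : Type*} [AddCommGroup V] [Module R V] [Module F V]
    [IsScalarTower F R V] [IsSimpleModule R V] (t : Module.End R V) : IsIntegral F t := by
  classical
  obtain ⟨n, hn, I, hI, ⟨e⟩⟩ := IsSimpleRing.exists_algEquiv_matrix_end_mulOpposite F (R := R)
  obtain ⟨g⟩ := simple_equiv (R := R) V I
  let c : Module.End R V ≃ₐ[F] Module.End R I := g.conjAlgEquiv F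
  let w : R := e.symm (Matrix.scalarAlgHom (Fin n) F (MulOpposite.op (c t)))
  obtain ⟨p, hp0, hp⟩ := Algebra.IsAlgebraic.isAlgebraic (R := F) w
  have h1 : Polynomial.aeval (MulOpposite.op (c t)) p = 0 := by
    have h2 : e.symm (Matrix.scalarAlgHom (Fin n) F (Polynomial.aeval (MulOpposite.op (c t)) p))
        = 0 := by
      rw [← Polynomial.aeval_algHom_apply]
      rw [← hp]
      exact (Polynomial.aeval_algHom_apply e.symm _ p).symm
    have h3 := e.symm.injective (h2.trans (map_zero _).symm)
    have h4 := congrFun (congrFun h3 0) 0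
    simpa using h4
  have h2 : Polynomial.aeval (c t) p = 0 := by
    apply MulOpposite.op_injective
    rw [MulOpposite.op_zero, ← h1, Polynomial.aeval_eq_sum_range, Polynomial.aeval_eq_sum_range,
      Finset.op_sum]
    simp only [MulOpposite.op_smul, MulOpposite.op_pow]
  have h3 : Polynomial.aeval t p = 0 := by
    apply c.injective
    rw [map_zero, ← h2]
    exact (Polynomial.aeval_algHom_apply c t p).symm
  exact (IsAlgebraic.isIntegral ⟨p, hp0, h3⟩)

end NC

section Step

variable {F : Type u} {D : Type u} [Field F] [DivisionRing D] [Algebra F D]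
  [Algebra.IsCentral F D] [Algebra.IsAlgebraic F D] [Uncountable F]
  {E E' : Type u} [Field E] [Algebra F E] [FiniteDimensional F E]
  [Field E'] [Algebra F E'] [FiniteDimensional F E'] [Algebra E E'] [IsScalarTower F E E']

omit [Algebra.IsCentral F D] [Algebra.IsAlgebraic F D] [Uncountable F] [FiniteDimensional F E] in
theorem rhoS_comm (x y : E') (v : simpleIdeal F D E') :
    rhoS F D E' x (rhoS F D E' y v) = rhoS F D E' y (rhoS F D E' x v) := by
  rw [← Module.End.mul_apply, ← Module.End.mul_apply, ← map_mul, ← map_mul, mul_comm]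

/-- `E'` acting on its simple module by `D ⊗ E`-linear maps. -/
noncomputable def PHom (F D E E' : Type u) [Field F] [DivisionRing D] [Algebra F D]
    [Field E] [Algebra F E] [Field E'] [Algebra F E'] [FiniteDimensional F E'] [Algebra E E']
    [IsScalarTower F E E'] : E' →ₐ[F] Module.End (D ⊗[F] E) (Bi (resRho F D E E')) where
  toFun x := Bi.homMk (rhoS F D E' x) (fun e v => rhoS_comm x _ v)
  map_one' := by
    ext v
    change rhoS F D E' 1 v = v
    rw [map_one]; rfl
  map_mul' x y := by
    ext v
    change rhoS F D E' (x * y) v = rhoS F D E' x (rhoS F D E' y v)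
    rw [map_mul]; rfl
  map_zero' := by
    ext v
    change rhoS F D E' 0 v = 0
    rw [map_zero]; rfl
  map_add' x y := by
    ext v
    change rhoS F D E' (x + y) v = rhoS F D E' x v + rhoS F D E' y v
    rw [map_add]; rfl
  commutes' a := by
    ext v
    change rhoS F D E' (algebraMap F E' a) v = a • (v : simpleIdeal F D E')
    rw [AlgHom.commutes]; rfl

/-- The simple module twisted by an automorphism. -/
noncomputable abbrev twRho (F D : Type u) {E' : Type u} [Field F] [DivisionRing D] [Algebra F D]
    [Field E'] [Algebra F E'] [FiniteDimensional F E'] (σ : E' ≃ₐ[F] E') :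
    E' →ₐ[F] Module.End D (simpleIdeal F D E') :=
  (rhoS F D E').comp σ.toAlgHom

omit [Algebra.IsAlgebraic F D] [Uncountable F] in
theorem simple_tw (σ : E' ≃ₐ[F] E') : IsSimpleModule (D ⊗[F] E') (Bi (twRho F D σ)) := by
  have : Module.Finite D (Bi (twRho F D σ)) :=
    inferInstanceAs (Module.Finite D (simpleIdeal F D E'))
  obtain ⟨n, ⟨e⟩, hn⟩ := sdim_dvd (F := F) (D := D) (E := E') (Bi (twRho F D σ))
  have hpos := sdim_pos F D E'
  have h1 : n = 1 := by
    have h2 : sdim F D E' = n * sdim F D E' := hn
    have h3 : 1 * sdim F D E' = n * sdim F D E' := by rw [one_mul]; exact h2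
    exact (Nat.eq_of_mul_eq_mul_right hpos h3).symm
  subst h1
  have e2 : (Fin 1 → simpleIdeal F D E') ≃ₗ[D ⊗[F] E'] simpleIdeal F D E' :=
    LinearEquiv.funUnique (Fin 1) _ _
  exact IsSimpleModule.congr (e.trans e2)

omit [Algebra.IsAlgebraic F D] [Uncountable F] in
/-- Skolem–Noether on the simple module. -/
theorem exists_intertwiner (σ : E' ≃ₐ[F] E') :
    ∃ f : simpleIdeal F D E' →ₗ[D] simpleIdeal F D E', f ≠ 0 ∧
      ∀ (x : E') (v : simpleIdeal F D E'), f (rhoS F D E' x v) = rhoS F D E' (σ x) (f v) := by
  have := simple_tw (F := F) (D := D) σ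
  obtain ⟨g⟩ := simple_equiv (R := D ⊗[F] E') (Bi (rhoS F D E')) (Bi (twRho F D σ))
  let f : simpleIdeal F D E' →ₗ[D] simpleIdeal F D E' :=
    { toFun := fun v => g v
      map_add' := fun v w => g.map_add v w
      map_smul' := fun d v => (g.restrictScalars D).map_smul d v }
  refine ⟨f, ?_, ?_⟩
  · intro hf
    have hne : Nontrivial (simpleIdeal F D E') :=
      IsSimpleModule.nontrivial (D ⊗[F] E') (simpleIdeal F D E')
    obtain ⟨v, hv⟩ := exists_ne (0 : simpleIdeal F D E')
    apply hv
    apply g.injective
    have h1 : f v = 0 := by rw [hf]; rfl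
    exact h1.trans (g.map_zero).symm
  · intro x v
    have h1 := g.map_smul ((1 : D) ⊗ₜ[F] x) (toBi F D E' v)
    rw [Bi.tmul_smul, Bi.tmul_smul, one_smul, one_smul] at h1
    exact h1

/-- **The cyclic step.**  Along an extension `E' / E` of prime degree with a nontrivial
automorphism the dimension of the simple `D`-module is multiplied by the degree. -/
theorem sdim_step (H : FinDivComm.{u, u} F) (hp : (Module.finrank E E').Prime)
    (σF : E' ≃ₐ[F] E') (hσE : ∀ e : E, σF (algebraMap E E' e) = algebraMap E E' e)
    (x₀ : E') (hσ : σF x₀ ≠ x₀) :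
    sdim F D E' = Module.finrank E E' * sdim F D E := by
  classical
  obtain ⟨n, -, hn⟩ := sdim_dvd_sdim (F := F) (D := D) (E := E) (E' := E')
  have hdvd := sdim_dvd_bc (F := F) (D := D) (E := E) (E' := E') (rhoS F D E)
  change sdim F D E' ∣ Module.finrank E E' * sdim F D E at hdvd
  have hpos := sdim_pos F D E
  have hnd : n ∣ Module.finrank E E' := by
    rw [hn] at hdvd
    exact Nat.dvd_of_mul_dvd_mul_right hpos hdvd
  rcases (Nat.dvd_prime hp).mp hnd with h1 | h1
  swap
  · rw [hn, h1]
  exfalso
  rw [h1, one_mul] at hn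
  have hsimp := simple_of_sdim_eq (F := F) (D := D) (E := E) (E' := E') hn
  obtain ⟨f, hf0, hf⟩ := exists_intertwiner (D := D) σF
  let T := Module.End (D ⊗[F] E) (Bi (resRho F D E E'))
  let fT : T := Bi.homMk f (fun e v => by
    change f (rhoS F D E' (algebraMap E E' e) v) = rhoS F D E' (algebraMap E E' e) (f v)
    rw [hf]
    congr 2
    exact hσE e)
  have hfT0 : fT ≠ 0 := by
    intro h
    apply hf0
    ext1 v
    exact LinearMap.congr_fun h v
  have hcommT : ∀ x, fT * PHom F D E E' x = PHom F D E E' (σF x) * fT := by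
    intro x
    ext v
    exact hf x v
  have halg : Algebra.IsAlgebraic F (D ⊗[F] E) := by
    have h1 : Algebra.IsAlgebraic F (E ⊗[F] D) := isAlgebraic_tensor F D E
    constructor
    intro x
    have h2 := h1.isAlgebraic (Algebra.TensorProduct.comm F D E x)
    exact (isAlgebraic_algHom_iff (Algebra.TensorProduct.comm F D E).toAlgHom
      (Algebra.TensorProduct.comm F D E).injective).mp h2
  have hint : IsIntegral F fT := end_integral fT
  exact hσ (auto_trivial H (PHom F D E E') σF fT hfT0 hint hcommT x₀)

omit [Algebra.IsAlgebraic F D] [Uncountable F] in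
theorem sdim_eq_of_finrank_one (h : Module.finrank E E' = 1) : sdim F D E' = sdim F D E := by
  obtain ⟨n, -, hn⟩ := sdim_dvd_sdim (F := F) (D := D) (E := E) (E' := E')
  have hdvd := sdim_dvd_bc (F := F) (D := D) (E := E) (E' := E') (rhoS F D E)
  change sdim F D E' ∣ Module.finrank E E' * sdim F D E at hdvd
  rw [h, one_mul] at hdvd
  exact Nat.dvd_antisymm hdvd ⟨n, by rw [hn, mul_comm]⟩

end Step

end Vale.H19.Kurosh
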