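import Mathlib
import Vale.Agent.H19.KuroshStep

/-!
# Algebraic division algebras over uncountable centres without finite-dimensional division algebras
-/

namespace Vale.H19.Kurosh

open scoped TensorProduct
open IntermediateField

universe u

section Galois

variable {F : Type u} {D : Type u} [Field F] [DivisionRing D] [Algebra F D]
  [Algebra.IsCentral F D] [Algebra.IsAlgebraic F D] [Uncountable F]
  {L : Type u} [Field L] [Algebra F L] [FiniteDimensional F L] [IsGalois F L]

theorem sdim_fixedField (H : FinDivComm.{u, u} F) (p : ℕ) [hp : Fact p.Prime] (k : ℕ) :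
    ∀ N : Subgroup (L ≃ₐ[F] L), Nat.card N = p ^ k →
      sdim F D L = p ^ k * sdim F D (fixedField N) := by
  induction k with
  | zero =>
    intro N hN
    rw [pow_zero] at hN ⊢
    rw [one_mul]
    apply sdim_eq_of_finrank_one (E := fixedField N) (E' := L)
    rw [finrank_fixedField_eq_card, hN]
  | succ k ih =>
    intro N hN
    obtain ⟨K, hK⟩ := Sylow.exists_subgroup_card_pow_prime (G := N) p (n := k)
      (by rw [hN]; exact pow_dvd_pow p (Nat.le_succ k))
    have hKi : K.index = p := by
      have h1 := K.index_mul_card
      rw [hK, hN, pow_succ, mul_comm] at h1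
      exact Nat.eq_of_mul_eq_mul_left (pow_pos hp.out.pos k) h1
    have hKn : K.Normal := by
      apply Subgroup.normal_of_index_eq_minFac_card
      rw [hKi, hN, Nat.pow_minFac (Nat.succ_ne_zero k), hp.out.minFac_eq]
    let N' : Subgroup (L ≃ₐ[F] L) := K.map N.subtype
    have hN'card : Nat.card N' = p ^ k := by
      rw [← hK]
      exact Nat.card_congr (K.equivMapOfInjective N.subtype N.subtype_injective).symm.toEquiv
    have hN'le : N' ≤ N := by
      rintro _ ⟨x, -, rfl⟩
      exact x.2
    have hle : fixedField N ≤ fixedField N' := by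
      intro x hx
      rw [mem_fixedField_iff] at hx ⊢
      exact fun f hf => hx f (hN'le hf)
    -- the algebra structure
    let _ : Algebra (fixedField N) (fixedField N') := (inclusion hle).toRingHom.toAlgebra
    have : IsScalarTower F (fixedField N) (fixedField N') := IsScalarTower.of_algebraMap_eq
      (fun x => rfl)
    have : IsScalarTower (fixedField N) (fixedField N') L := IsScalarTower.of_algebraMap_eq
      (fun x => rfl)
    have hfr : Module.finrank (fixedField N) (fixedField N') = p := by
      have h1 := Module.finrank_mul_finrank (fixedField N) (fixedField N') L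
      rw [finrank_fixedField_eq_card, finrank_fixedField_eq_card, hN, hN'card, pow_succ,
        mul_comm] at h1
      exact Nat.eq_of_mul_eq_mul_left (pow_pos hp.out.pos k) h1
    rw [ih N' hN'card]
    -- stability under `N`
    have hstab : ∀ t ∈ N, ∀ x ∈ fixedField N', t x ∈ fixedField N' := by
      intro t ht x hx
      rw [mem_fixedField_iff] at hx ⊢
      rintro _ ⟨f, hf, rfl⟩
      have h1 : (N.subtype ((⟨t, ht⟩ : N)⁻¹ * f * (⟨t, ht⟩ : N))) x = x := by
        apply hx
        refine ⟨_, ?_, rfl⟩
        have := hKn.conj_mem f hf (⟨t, ht⟩ : N)⁻¹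
        rwa [inv_inv] at this
      have h2 : (t * (N.subtype ((⟨t, ht⟩ : N)⁻¹ * f * (⟨t, ht⟩ : N)))) x
          = (N.subtype f * t) x := by
        congr 1
        simp only [Subgroup.subtype_apply, Subgroup.coe_mul, Subgroup.coe_inv]
        group
      change (N.subtype f * t) x = t x
      rw [← h2]
      change t ((N.subtype ((⟨t, ht⟩ : N)⁻¹ * f * (⟨t, ht⟩ : N))) x) = t x
      rw [h1]
    obtain ⟨s, hs⟩ : ∃ s : N, s ∉ K := by
      by_contra hcon
      push Not at hcon
      have : K = ⊤ := by
        rw [eq_top_iff]; exact fun x _ => hcon x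
      rw [this, Subgroup.index_top] at hKi
      exact hp.out.one_lt.ne hKi
    have hs' : (s : L ≃ₐ[F] L) ∉ N' := by
      rintro ⟨x, hx, hxs⟩
      apply hs
      have : x = s := Subtype.ext hxs
      rwa [← this]
    let σF : fixedField N' ≃ₐ[F] fixedField N' :=
      { toFun := fun x => ⟨(s : L ≃ₐ[F] L) x, hstab _ s.2 _ x.2⟩
        invFun := fun x => ⟨((s : L ≃ₐ[F] L)⁻¹ : L ≃ₐ[F] L) x, hstab _ (N.inv_mem s.2) _ x.2⟩
        left_inv := fun x => Subtype.ext ((s : L ≃ₐ[F] L).symm_apply_apply x)
        right_inv := fun x => Subtype.ext ((s : L ≃ₐ[F] L).apply_symm_apply x)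
        map_mul' := fun x y => Subtype.ext (map_mul (s : L ≃ₐ[F] L) (x : L) y)
        map_add' := fun x y => Subtype.ext (map_add (s : L ≃ₐ[F] L) (x : L) y)
        commutes' := fun a => Subtype.ext ((s : L ≃ₐ[F] L).commutes a) }
    have hσE : ∀ e : fixedField N, σF (algebraMap (fixedField N) (fixedField N') e)
        = algebraMap (fixedField N) (fixedField N') e := by
      intro e
      apply Subtype.ext
      exact (mem_fixedField_iff N (e : L)).mp e.2 s s.2
    obtain ⟨x₀, hx₀⟩ : ∃ x₀ : fixedField N', σF x₀ ≠ x₀ := by
      by_contra hcon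
      push Not at hcon
      apply hs'
      rw [← fixingSubgroup_fixedField N']
      intro x
      exact congrArg Subtype.val (hcon x)
    have hstep := sdim_step (D := D) (E := fixedField N) (E' := fixedField N') H
      (by rw [hfr]; exact hp.out) σF hσE x₀ hx₀
    rw [hstep, hfr, pow_succ, mul_assoc]

end Galois

section Main

variable {F : Type u} {D : Type u} [Field F] [DivisionRing D] [Algebra F D]

/-- The right multiplication action of a subfield on `D`. -/
def rightRho {K : Type u} [Field K] [Algebra F K] (g : K →ₐ[F] D) : K →ₐ[F] Module.End D D where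
  toFun x :=
    { toFun := fun d => d * g x
      map_add' := fun c d => add_mul _ _ _
      map_smul' := fun c d => by simp [mul_assoc] }
  map_one' := by ext; simp
  map_mul' x y := by
    ext
    simp only [LinearMap.coe_mk, AddHom.coe_mk, one_mul, Module.End.mul_apply]
    rw [mul_comm x y, map_mul]
  map_zero' := by ext; simp
  map_add' x y := by ext; simp
  commutes' a := by
    ext
    simp [Algebra.smul_def]

/-- **Theorem A.**  If every finite-dimensional division algebra over the uncountable field `F` is
commutative, then so is every division algebra which is algebraic over `F` with centre `F`. -/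
theorem eq_bot_of_finDivComm [Algebra.IsCentral F D] [Algebra.IsAlgebraic F D] [Uncountable F]
    (H : FinDivComm.{u, u} F) : (⊥ : Subalgebra F D) = ⊤ := by
  classical
  by_contra hne
  obtain ⟨a, ha, hsep⟩ := JacobsonNoether.exists_separable_and_not_isCentral' hne
  have haint : IsIntegral F a := Algebra.IsIntegral.isIntegral a
  let p := minpoly F a
  have hpirr : Irreducible p := minpoly.irreducible haint
  have : Fact (Irreducible p) := ⟨hpirr⟩
  let K := AdjoinRoot p
  let L := p.SplittingField
  have hgal : IsGalois F L := IsGalois.of_separable_splitting_field (p := p) hsep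
  -- the embedding into `D`
  let gD : K →ₐ[F] D := Ideal.Quotient.liftₐ (Ideal.span {p}) (Polynomial.aeval a) (by
    intro q hq
    obtain ⟨r, rfl⟩ := Ideal.mem_span_singleton'.mp hq
    rw [map_mul]
    simp [p])
  -- the embedding into `L`
  have hroot : ∃ x : L, Polynomial.aeval x p = 0 := by
    have hd : (p.map (algebraMap F L)).degree ≠ 0 := by
      rw [Polynomial.degree_map]
      exact hpirr.degree_pos.ne'
    obtain ⟨x, hx⟩ := (Polynomial.SplittingField.splits p).exists_eval_eq_zero hd
    exact ⟨x, by rwa [Polynomial.aeval_def, ← Polynomial.eval_map]⟩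
  obtain ⟨α, hα⟩ := hroot
  let gL : K →ₐ[F] L := AdjoinRoot.liftAlgHom p (Algebra.ofId F L) α hα
  let _ : Algebra K L := gL.toRingHom.toAlgebra
  have : IsScalarTower F K L := IsScalarTower.of_algebraMap_eq (fun x => (gL.commutes x).symm)
  have hfK : Module.finrank F K = p.natDegree := by
    rw [(AdjoinRoot.powerBasis hpirr.ne_zero).finrank, AdjoinRoot.powerBasis_dim]
  have hn1 : p.natDegree ≠ 1 := by
    intro h
    apply ha
    have h1 := (minpoly.natDegree_eq_one_iff).mp h
    rw [Algebra.mem_bot]
    exact h1
  have hKfin : FiniteDimensional F K := by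
    apply FiniteDimensional.of_finrank_pos
    rw [hfK]
    exact hpirr.natDegree_pos
  -- first divisibility
  have hdvd := sdim_dvd_bc (F := F) (D := D) (E := K) (E' := L) (rightRho gD)
  rw [Module.finrank_self, mul_one] at hdvd
  -- a prime and a Sylow subgroup
  let l := p.natDegree.minFac
  have hl : Fact l.Prime := ⟨Nat.minFac_prime hn1⟩
  obtain ⟨P⟩ : Nonempty (Sylow l (L ≃ₐ[F] L)) := inferInstance
  obtain ⟨k, hk⟩ := IsPGroup.iff_card.mp P.2
  have hs := sdim_fixedField (F := F) (D := D) (L := L) H l k P hk
  have hcard : Nat.card P * (P : Subgroup (L ≃ₐ[F] L)).index = Module.finrank F L := by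
    rw [Subgroup.card_mul_index, IsGalois.card_aut_eq_finrank]
  have htower : Module.finrank F K * Module.finrank K L = Module.finrank F L :=
    Module.finrank_mul_finrank F K L
  obtain ⟨c, hc⟩ := hdvd
  rw [hs] at hc
  have hfin : p.natDegree * (sdim F D (fixedField (P : Subgroup (L ≃ₐ[F] L))) * c)
      = (P : Subgroup (L ≃ₐ[F] L)).index := by
    have h1 : l ^ k * (p.natDegree * (sdim F D (fixedField (P : Subgroup (L ≃ₐ[F] L))) * c))
        = l ^ k * (P : Subgroup (L ≃ₐ[F] L)).index := by
      rw [← hk, hcard, ← htower, hfK, hc, hk]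
      ring
    exact Nat.eq_of_mul_eq_mul_left (pow_pos hl.out.pos k) h1
  have hdl : l ∣ (P : Subgroup (L ≃ₐ[F] L)).index := by
    rw [← hfin]
    exact Dvd.dvd.mul_right (Nat.minFac_dvd _) _
  exact P.not_dvd_index hdl

end Main

end Vale.H19.Kurosh
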