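import Mathlib
import Vale.Agent.H19.KuroshMain

/-!
# From centres to arbitrary central subfields; local finiteness
-/

namespace Vale.H19.Kurosh

open scoped TensorProduct

universe u

/-- A finite-dimensional algebra over an algebraic extension is locally finite over the base. -/
theorem exists_finite_subalgebra {K F' Δ : Type*} [Field K] [Field F'] [Algebra K F']
    [Algebra.IsAlgebraic K F'] [Ring Δ] [Algebra F' Δ] [Algebra K Δ] [IsScalarTower K F' Δ]
    [Module.Finite F' Δ] (S : Set Δ) (hS : S.Finite) :
    ∃ B : Subalgebra K Δ, S ⊆ B ∧ Module.Finite K B := by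
  classical
  let b := Module.finBasis F' Δ
  let C : Set F' := (Set.range fun q : (Fin (Module.finrank F' Δ)) × (Fin (Module.finrank F' Δ)) ×
      (Fin (Module.finrank F' Δ)) => b.repr (b q.1 * b q.2.1) q.2.2) ∪
    ((Set.range fun i => b.repr 1 i) ∪
      ⋃ s ∈ S, Set.range fun i => b.repr s i)
  have hC : C.Finite := by
    refine (Set.finite_range _).union ((Set.finite_range _).union ?_)
    exact hS.biUnion fun s _ => Set.finite_range _
  let K' : Subalgebra K F' := Algebra.adjoin K C
  have hK' : Module.Finite K K' := by
    have : (Subalgebra.toSubmodule K').FG :=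
      fg_adjoin_of_finite hC (fun x _ => Algebra.IsIntegral.isIntegral x)
    exact (Submodule.fg_iff_finiteDimensional _).mp this
  have hC1 : ∀ i j k, b.repr (b i * b j) k ∈ K' := fun i j k =>
    Algebra.subset_adjoin (Or.inl ⟨(i, j, k), rfl⟩)
  have hC2 : ∀ i, b.repr 1 i ∈ K' := fun i =>
    Algebra.subset_adjoin (Or.inr (Or.inl ⟨i, rfl⟩))
  have hC3 : ∀ s ∈ S, ∀ i, b.repr s i ∈ K' := fun s hs i =>
    Algebra.subset_adjoin (Or.inr (Or.inr (Set.mem_biUnion hs ⟨i, rfl⟩)))
  let B : Subalgebra K Δ :=
    { carrier := {x | ∀ i, b.repr x i ∈ K'}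
      mul_mem' := by
        intro x y hx hy k
        have h : x * y = ∑ i, ∑ j, (b.repr x i * b.repr y j) • (b i * b j) := by
          conv_lhs => rw [← b.sum_repr x, ← b.sum_repr y]
          rw [Finset.sum_mul_sum]
          refine Finset.sum_congr rfl fun i _ => Finset.sum_congr rfl fun j _ => ?_
          rw [smul_mul_smul_comm]
        rw [h, map_sum, Finsupp.finsetSum_apply]
        refine K'.sum_mem fun i _ => ?_
        rw [map_sum, Finsupp.finsetSum_apply]
        refine K'.sum_mem fun j _ => ?_
        rw [map_smul, Finsupp.smul_apply, smul_eq_mul]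
        exact K'.mul_mem (K'.mul_mem (hx i) (hy j)) (hC1 i j k)
      add_mem' := by
        intro x y hx hy k
        rw [map_add, Finsupp.add_apply]
        exact K'.add_mem (hx k) (hy k)
      algebraMap_mem' := by
        intro r k
        rw [IsScalarTower.algebraMap_apply K F' Δ, Algebra.algebraMap_eq_smul_one (A := Δ),
          map_smul, Finsupp.smul_apply, smul_eq_mul]
        exact K'.mul_mem (K'.algebraMap_mem r) (hC2 k) }
  refine ⟨B, fun s hs i => hC3 s hs i, ?_⟩
  let φ : B →ₗ[K] (Fin (Module.finrank F' Δ) → K') :=
    { toFun := fun x i => ⟨b.repr (x : Δ) i, x.2 i⟩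
      map_add' := fun x y => by
        ext i
        change b.repr ((x : Δ) + y) i = b.repr (x : Δ) i + b.repr (y : Δ) i
        rw [map_add, Finsupp.add_apply]
      map_smul' := fun r x => by
        ext i
        change b.repr (r • (x : Δ)) i = r • b.repr (x : Δ) i
        rw [← algebraMap_smul F' r (x : Δ), map_smul, Finsupp.smul_apply, algebraMap_smul] }
  refine Module.Finite.of_injective φ ?_
  intro x y hxy
  apply Subtype.ext
  apply b.repr.injective
  ext i
  exact congrArg Subtype.val (congrFun hxy i)

/-- The hypothesis passes to algebraic extensions. -/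
theorem FinDivComm.of_algebraic {K F' : Type u} [Field K] [Field F'] [Algebra K F']
    [Algebra.IsAlgebraic K F'] (H : FinDivComm.{u, u} K) : FinDivComm.{u, u} F' := by
  classical
  intro Δ _ _ _ x y
  let _ : Algebra K Δ := Algebra.compHom Δ (algebraMap K F')
  have : IsScalarTower K F' Δ := IsScalarTower.of_algebraMap_eq (fun _ => rfl)
  obtain ⟨B, hB, hfin⟩ := exists_finite_subalgebra (K := K) (F' := F') (Δ := Δ) {x, y}
    (Set.toFinite _)
  let _ : DivisionRing B := divisionRingOfFiniteDimensional K B
  have := H B ⟨x, hB (by simp)⟩ ⟨y, hB (by simp)⟩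
  exact congrArg Subtype.val this

section Center

variable (k D : Type u) [Field k] [DivisionRing D] [Algebra k D]

/-- The structure map into the centre. -/
def toCenter : k →+* Subring.center D :=
  (algebraMap k D).codRestrict (Subring.center D) (fun r => by
    rw [Subring.mem_center_iff]
    intro g
    exact (Algebra.commutes r g).symm)

instance isCentral_center : Algebra.IsCentral (Subring.center D) D where
  out := by
    intro x hx
    rw [Algebra.mem_bot]
    refine ⟨⟨x, ?_⟩, rfl⟩
    rw [Subring.mem_center_iff]
    intro g
    exact (Subalgebra.mem_center_iff.mp hx) g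

variable {k D}

theorem center_setup [Algebra.IsAlgebraic k D] :
    letI : Algebra k (Subring.center D) := (toCenter k D).toAlgebra
    IsScalarTower k (Subring.center D) D ∧ Algebra.IsAlgebraic k (Subring.center D) ∧
      Algebra.IsAlgebraic (Subring.center D) D := by
  letI : Algebra k (Subring.center D) := (toCenter k D).toAlgebra
  have h1 : IsScalarTower k (Subring.center D) D := IsScalarTower.of_algebraMap_eq (fun _ => rfl)
  refine ⟨h1, ?_, ?_⟩
  · constructor
    intro x
    have h2 : IsAlgebraic k (algebraMap (Subring.center D) D x) :=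
      Algebra.IsAlgebraic.isAlgebraic _
    exact (isAlgebraic_algebraMap_iff (algebraMap (Subring.center D) D).injective).mp h2
  · exact Algebra.IsAlgebraic.tower_top (K := k) _

/-- **Theorem A, for arbitrary central subfields.** -/
theorem comm_of_finDivComm [Uncountable k] [Algebra.IsAlgebraic k D] (H : FinDivComm.{u, u} k)
    (x y : D) : x * y = y * x := by
  letI : Algebra k (Subring.center D) := (toCenter k D).toAlgebra
  obtain ⟨h1, h2, h3⟩ := center_setup (k := k) (D := D)
  have hunc : Uncountable (Subring.center D) := (toCenter k D).injective.uncountable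
  have HF : FinDivComm.{u, u} (Subring.center D) := H.of_algebraic
  have htop := eq_bot_of_finDivComm (F := Subring.center D) (D := D) HF
  have hx : x ∈ (⊥ : Subalgebra (Subring.center D) D) := by rw [htop]; trivial
  rw [Algebra.mem_bot] at hx
  obtain ⟨c, rfl⟩ := hx
  exact Algebra.commutes c y

end Center

end Vale.H19.Kurosh
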