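import Mathlib
import Vale.Agent.H19.KuroshLF

/-!
# The virtual version
-/

namespace Vale.H19.Kurosh

open scoped TensorProduct

universe u

section Center

variable {F D E : Type*} [Field F] [DivisionRing D] [Algebra F D]
  [Field E] [Algebra F E] [Algebra.IsCentral F D]

/-- An element of `D ⊗ E` commuting with `D` lies in `1 ⊗ E`. -/
theorem exists_eq_one_tmul (z : D ⊗[F] E) (hz : ∀ d : D, (d ⊗ₜ[F] (1 : E)) * z = z * (d ⊗ₜ 1)) :
    ∃ e : E, z = 1 ⊗ₜ[F] e := by
  classical
  let b := tb F D E
  have hcomm : ∀ (d : D) (i), d * b.repr z i = b.repr z i * d := by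
    intro d i
    have h1 : b.repr ((d ⊗ₜ[F] (1 : E)) * z) i = d * b.repr z i := tb_repr_mul_left F D E z d i
    have h2 : b.repr (z * (d ⊗ₜ 1)) i = b.repr z i * d := tb_repr_mul_right F D E z d i
    rw [← h1, ← h2, hz]
  have hcen : ∀ i, ∃ l : F, algebraMap F D l = b.repr z i := by
    intro i
    have : b.repr z i ∈ Subalgebra.center F D := by
      rw [Subalgebra.mem_center_iff]
      intro d
      exact hcomm d i
    obtain ⟨a, ha⟩ := (Algebra.IsCentral.mem_center_iff F).mp this
    exact ⟨a, ha.symm⟩
  choose l hl using hcen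
  refine ⟨∑ i ∈ (b.repr z).support, l i • Module.Free.chooseBasis F E i, ?_⟩
  conv_lhs => rw [← b.linearCombination_repr z]
  rw [Finsupp.linearCombination_apply, Finsupp.sum, TensorProduct.tmul_sum]
  refine Finset.sum_congr rfl fun i _ => ?_
  rw [← hl i]
  simp only [b, tb, Algebra.TensorProduct.basis_apply, TensorProduct.smul_tmul', smul_eq_mul,
    mul_one]
  rw [Algebra.algebraMap_eq_smul_one, TensorProduct.smul_tmul]

end Center

section Virt

variable (F D Kf : Type u) [Field F] [Uncountable F] [DivisionRing D] [Algebra F D]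
  [Algebra.IsCentral F D] [Algebra.IsAlgebraic F D] [Field Kf] [Algebra F Kf]
  [FiniteDimensional F Kf]

theorem finite_of_virt (H : FinDivComm.{u, u} Kf) :
    Module.Finite F D ∧ Module.finrank F D ≤ Module.finrank F Kf ^ 2 := by
  classical
  let R := Kf ⊗[F] D
  let cm : D ⊗[F] Kf ≃ₐ[F] R := Algebra.TensorProduct.comm F D Kf
  have hsimple : IsSimpleRing R := IsSimpleRing.of_ringEquiv cm.toRingEquiv inferInstance
  have hart : IsArtinianRing R := cm.toRingEquiv.isArtinianRing
  obtain ⟨r, hr, T, _, _, ⟨e⟩⟩ := IsSimpleRing.exists_algEquiv_matrix_divisionRing Kf (R := R)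
  have halgF : Algebra.IsAlgebraic F R := isAlgebraic_tensor F D Kf
  have halgK : Algebra.IsAlgebraic Kf R := Algebra.IsAlgebraic.tower_top (K := F) Kf
  have hunc : Uncountable Kf := (algebraMap F Kf).injective.uncountable
  let sc : T →ₐ[Kf] R := e.symm.toAlgHom.comp (Matrix.scalarAlgHom (Fin r) Kf)
  have hsc : Function.Injective sc := by
    intro x y hxy
    have h1 : Matrix.scalar (Fin r) x = Matrix.scalar (Fin r) y := e.symm.injective hxy
    have h2 := congrFun (congrFun h1 0) 0
    simpa using h2
  have halgT : Algebra.IsAlgebraic Kf T := by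
    constructor
    intro t
    exact (isAlgebraic_algHom_iff sc hsc).mp (halgK.isAlgebraic _)
  have hcomm : ∀ x y : T, x * y = y * x := comm_of_finDivComm H
  -- `T = Kf`
  have hsurj : ∀ t : T, ∃ c : Kf, algebraMap Kf T c = t := by
    intro t
    have hcen : ∀ w : R, w * sc t = sc t * w := by
      intro w
      obtain ⟨M, rfl⟩ := e.symm.surjective w
      change e.symm M * e.symm (Matrix.scalar (Fin r) t) = e.symm (Matrix.scalar (Fin r) t) *
        e.symm M
      rw [← map_mul, ← map_mul]
      congr 1
      exact (Matrix.scalar_commute t (fun x => hcomm _ _) M).eq.symm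
    obtain ⟨c, hc⟩ := exists_eq_one_tmul (F := F) (D := D) (E := Kf) (cm.symm (sc t)) (by
      intro d
      apply cm.injective
      rw [map_mul, map_mul, AlgEquiv.apply_symm_apply]
      exact hcen _)
    refine ⟨c, ?_⟩
    have h1 : sc t = algebraMap Kf R c := by
      have h2 : cm (cm.symm (sc t)) = cm (1 ⊗ₜ[F] c) := congrArg cm hc
      rw [AlgEquiv.apply_symm_apply] at h2
      rw [h2]
      rfl
    apply hsc
    rw [h1, AlgHom.commutes]
  have hTfin : Module.Finite Kf T :=
    Module.Finite.of_surjective (Algebra.linearMap Kf T) (fun t => hsurj t)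
  have hT1 : Module.finrank Kf T ≤ 1 := by
    have := LinearMap.finrank_le_finrank_of_surjective (f := Algebra.linearMap Kf T)
      (fun t => hsurj t)
    rwa [Module.finrank_self] at this
  have hRfin : Module.Finite Kf R := Module.Finite.equiv e.symm.toLinearEquiv
  have hRr : Module.finrank Kf R ≤ r ^ 2 := by
    rw [e.toLinearEquiv.finrank_eq, Module.finrank_matrix]
    simp only [Fintype.card_fin]
    calc r * r * Module.finrank Kf T ≤ r * r * 1 := Nat.mul_le_mul_left _ hT1
      _ = r ^ 2 := by ring
  have hDfin : Module.Finite F D := by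
    have h1 : Module.rank Kf R < Cardinal.aleph0 := Module.rank_lt_aleph0_iff.mpr hRfin
    rw [Module.rank_baseChange, Cardinal.lift_id] at h1
    exact Module.rank_lt_aleph0_iff.mp h1
  refine ⟨hDfin, ?_⟩
  have hr_le : r ≤ Module.finrank F Kf := by
    let ψ : Matrix (Fin r) (Fin r) T →+* D ⊗[F] Kf := cm.symm.toRingHom.comp e.symm.toRingHom
    have hψ : Function.Injective ψ := cm.symm.injective.comp e.symm.injective
    let v : Fin r → D ⊗[F] Kf := fun i => ψ (Matrix.single i i 1)
    have hvv : ∀ i j, v i * v j = if i = j then v i else 0 := by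
      intro i j
      simp only [v]
      rw [← map_mul]
      by_cases hij : i = j
      · subst hij
        rw [if_pos rfl, Matrix.single_mul_single_same, one_mul]
      · rw [if_neg hij, Matrix.single_mul_single_of_ne _ _ _ _ hij, map_zero]
    have hv0 : ∀ i, v i ≠ 0 := by
      intro i h
      have h1 : (Matrix.single i i 1 : Matrix (Fin r) (Fin r) T) = 0 :=
        hψ (h.trans (map_zero ψ).symm)
      have h2 := congrFun (congrFun h1 i) i
      simp at h2
    have hlin : LinearIndependent D v := by
      rw [Fintype.linearIndependent_iff]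
      intro g hg j
      have h1 : (∑ i, g i • v i) * v j = g j • v j := by
        rw [Finset.sum_mul, Finset.sum_eq_single j]
        · rw [smul_mul_assoc, hvv, if_pos rfl]
        · intro i _ hij
          rw [smul_mul_assoc, hvv, if_neg hij, smul_zero]
        · intro h; exact absurd (Finset.mem_univ _) h
      rw [hg, zero_mul] at h1
      exact (smul_eq_zero.mp h1.symm).resolve_right (hv0 j)
    have := hlin.fintype_card_le_finrank
    rwa [Fintype.card_fin, finrank_tensor] at this
  calc Module.finrank F D = Module.finrank Kf R := (Module.finrank_baseChange).symm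
    _ ≤ r ^ 2 := hRr
    _ ≤ _ := Nat.pow_le_pow_left hr_le 2

end Virt

section Final

variable (k K D : Type u) [Field k] [Uncountable k] [Field K] [Algebra k K]
  [FiniteDimensional k K] [DivisionRing D] [Algebra k D] [Algebra.IsAlgebraic k D]

omit [Uncountable k] in
/-- A common finite extension of the centre receiving `K`. -/
theorem exists_compositum (F : Type u) [Field F] [Algebra k F] [Algebra.IsAlgebraic k F] :
    ∃ (Kf : Type u) (_ : Field Kf) (_ : Algebra F Kf) (_ : Algebra K Kf),
      Module.Finite F Kf ∧ Module.finrank F Kf ≤ Module.finrank k K ∧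
        Algebra.IsAlgebraic K Kf := by
  let R0 := F ⊗[k] K
  have hnt : Nontrivial R0 := by
    have hinj : Function.Injective (Algebra.TensorProduct.includeLeft : F →ₐ[k] F ⊗[k] K) :=
      Algebra.TensorProduct.includeLeft_injective (S := k)
        (FaithfulSMul.algebraMap_injective k K)
    exact hinj.nontrivial
  obtain ⟨M, hM⟩ := Ideal.exists_maximal R0
  let _ : Field (R0 ⧸ M) := Ideal.Quotient.field M
  let iK : K →+* R0 ⧸ M := (Ideal.Quotient.mk M).comp
    (Algebra.TensorProduct.includeRight : K →ₐ[k] F ⊗[k] K).toRingHom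
  let _ : Algebra K (R0 ⧸ M) := iK.toAlgebra
  have hfin : Module.Finite F (R0 ⧸ M) := Module.Finite.of_surjective
    (Ideal.Quotient.mkₐ F M).toLinearMap (Ideal.Quotient.mkₐ_surjective F M)
  refine ⟨R0 ⧸ M, inferInstance, inferInstance, inferInstance, hfin, ?_, ?_⟩
  · have := LinearMap.finrank_le_finrank_of_surjective
      (f := (Ideal.Quotient.mkₐ F M).toLinearMap) (Ideal.Quotient.mkₐ_surjective F M)
    rwa [show Module.finrank F R0 = Module.finrank k K from Module.finrank_baseChange] at this
  · have : IsScalarTower k K (R0 ⧸ M) := IsScalarTower.of_algebraMap_eq (fun x => by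
      change algebraMap k (R0 ⧸ M) x = Ideal.Quotient.mk M ((1 : F) ⊗ₜ[k] (algebraMap k K x))
      rw [Algebra.TensorProduct.tmul_one_eq_one_tmul x |>.symm]
      rfl)
    suffices h : ∀ w : R0, IsIntegral K (Ideal.Quotient.mk M w) by
      constructor
      intro z
      obtain ⟨w, rfl⟩ := Ideal.Quotient.mk_surjective z
      exact (h w).isAlgebraic
    intro w
    induction w using TensorProduct.induction_on with
    | zero => rw [map_zero]; exact isIntegral_zero
    | tmul f x =>
      have h1 : (f ⊗ₜ[k] x : R0) = (f ⊗ₜ 1) * (1 ⊗ₜ x) := by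
        rw [Algebra.TensorProduct.tmul_mul_tmul, mul_one, one_mul]
      rw [h1, map_mul]
      refine IsIntegral.mul ?_ ?_
      · have h2 : IsIntegral k f := Algebra.IsIntegral.isIntegral f
        have h3 : IsIntegral k (((Ideal.Quotient.mkₐ k M).comp
          (Algebra.TensorProduct.includeLeft : F →ₐ[k] F ⊗[k] K)) f) := h2.map _
        exact h3.tower_top
      · exact isIntegral_algebraMap (R := K) (x := x)
    | add x y hx hy => rw [map_add]; exact hx.add hy

/-- **Main theorem.** -/
theorem main (H : FinDivComm.{u, u} K) :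
    Module.Finite (Subring.center D) D ∧
      Module.finrank (Subring.center D) D ≤ Module.finrank k K ^ 2 ∧
        ∀ S : Set D, S.Finite → Module.Finite k (Algebra.adjoin k S) := by
  let _ : Algebra k (Subring.center D) := (toCenter k D).toAlgebra
  obtain ⟨h1, h2, h3⟩ := center_setup (k := k) (D := D)
  have hunc : Uncountable (Subring.center D) := (toCenter k D).injective.uncountable
  obtain ⟨Kf, _, _, _, hfin, hle, halg⟩ := exists_compositum k K (Subring.center D)
  have HKf : FinDivComm.{u, u} Kf := H.of_algebraic
  obtain ⟨hD, hDr⟩ := finite_of_virt (Subring.center D) D Kf HKf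
  refine ⟨hD, hDr.trans (Nat.pow_le_pow_left hle 2), ?_⟩
  intro S hS
  obtain ⟨B, hSB, hB⟩ := exists_finite_subalgebra (K := k) (F' := Subring.center D) (Δ := D) S hS
  have hle' : Algebra.adjoin k S ≤ B := Algebra.adjoin_le hSB
  exact Module.Finite.of_injective (Subalgebra.inclusion hle').toLinearMap
    (Subalgebra.inclusion_injective hle')

end Final

end Vale.H19.Kurosh
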